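import Vale.Agent.P121.Tight

/-!
# P121: abstract non-existence theorem for optimal Monge plans

`m` is a probability measure on a parameter space, concentrated on `B`.  `Ψ 0` parametrises the
pivot blob (mass `1/3`), `(Ψ 1, Ψ 2)` and `(Ψ 3, Ψ 4)` the two branches of partners
(each blob of mass `1/6`).
-/

open MeasureTheory Set Filter Topology
open scoped ENNReal

namespace Vale.Agent.P121

/-- The mixture `(1/3) Ψ₀#m + (1/6) (Ψ₁#m + Ψ₂#m + Ψ₃#m + Ψ₄#m)`. -/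
noncomputable def mixMeasure (m : Measure E3) (Ψ : Fin 5 → E3 → E3) : Measure E3 :=
  (3⁻¹ : ℝ≥0∞) • m.map (Ψ 0)
    + (6⁻¹ : ℝ≥0∞) • (m.map (Ψ 1) + m.map (Ψ 2) + m.map (Ψ 3) + m.map (Ψ 4))

/-- The points of the four non-pivot blobs. -/
def nonPivot (Ψ : Fin 5 → E3 → E3) (B : Set E3) : Set E3 :=
  {y | ∃ k : Fin 5, k ≠ 0 ∧ ∃ ω ∈ B, Ψ k ω = y}

theorem inv_three_eq : (3⁻¹ : ℝ≥0∞) = 2 * 6⁻¹ := by
  have h6 : (6 : ℝ≥0∞) = 2 * 3 := by norm_num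
  rw [h6, ENNReal.mul_inv (by norm_num) (by norm_num), ← mul_assoc,
    ENNReal.mul_inv_cancel (by norm_num) (by norm_num), one_mul]

theorem six_mul_inv : (6 : ℝ≥0∞) * 6⁻¹ = 1 :=
  ENNReal.mul_inv_cancel (by norm_num) (by norm_num)

theorem mix_apply (m : Measure E3) (Ψ : Fin 5 → E3 → E3) (hΨ : ∀ k, Measurable (Ψ k))
    {s : Set E3} (hs : MeasurableSet s) :
    mixMeasure m Ψ s = 3⁻¹ * m (Ψ 0 ⁻¹' s)
      + 6⁻¹ * (m (Ψ 1 ⁻¹' s) + m (Ψ 2 ⁻¹' s) + m (Ψ 3 ⁻¹' s) + m (Ψ 4 ⁻¹' s)) := by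
  simp only [mixMeasure, Measure.add_apply, Measure.smul_apply, smul_eq_mul,
    Measure.map_apply (hΨ _) hs]

theorem isProbabilityMeasure_mixMeasure (m : Measure E3) [IsProbabilityMeasure m]
    (Ψ : Fin 5 → E3 → E3) (hΨ : ∀ k, Measurable (Ψ k)) :
    IsProbabilityMeasure (mixMeasure m Ψ) := by
  constructor
  rw [mix_apply m Ψ hΨ MeasurableSet.univ]
  simp only [preimage_univ, measure_univ, inv_three_eq]
  calc (2 * 6⁻¹ * 1 + 6⁻¹ * (1 + 1 + 1 + 1) : ℝ≥0∞) = 6 * 6⁻¹ := by ring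
    _ = 1 := six_mul_inv

theorem mixMeasure_absolutelyContinuous (m : Measure E3) (Ψ : Fin 5 → E3 → E3)
    (h : ∀ k, m.map (Ψ k) ≪ volume) : mixMeasure m Ψ ≪ volume := by
  intro s hs
  simp only [mixMeasure, Measure.add_apply, Measure.smul_apply, smul_eq_mul, h _ hs, mul_zero,
    add_zero]

theorem lintegral_mix (m : Measure E3) (Ψ : Fin 5 → E3 → E3) (hΨ : ∀ k, Measurable (Ψ k))
    {f : E3 → ℝ≥0∞} (hf : Measurable f) :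
    ∫⁻ x, f x ∂(mixMeasure m Ψ) = 3⁻¹ * ∫⁻ w, f (Ψ 0 w) ∂m
      + 6⁻¹ * (∫⁻ w, f (Ψ 1 w) ∂m + ∫⁻ w, f (Ψ 2 w) ∂m + ∫⁻ w, f (Ψ 3 w) ∂m
        + ∫⁻ w, f (Ψ 4 w) ∂m) := by
  simp only [mixMeasure, lintegral_add_measure, lintegral_smul_measure, smul_eq_mul,
    lintegral_map hf (hΨ _)]

theorem map_absolutelyContinuous_mix (m : Measure E3) (Ψ : Fin 5 → E3 → E3) :
    m.map (Ψ 0) ≪ mixMeasure m Ψ := by
  intro s hs
  simp only [mixMeasure, Measure.add_apply, Measure.smul_apply, smul_eq_mul, add_eq_zero,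
    mul_eq_zero, ENNReal.inv_eq_zero] at hs
  rcases hs.1 with h | h
  · exact absurd h (by norm_num)
  · exact h

theorem ae_mix (m : Measure E3) (Ψ : Fin 5 → E3 → E3) (hΨ : ∀ k, Measurable (Ψ k))
    {s : Set E3} (hs : MeasurableSet s) (h : ∀ k, ∀ᵐ w ∂m, Ψ k w ∈ s) :
    ∀ᵐ x ∂(mixMeasure m Ψ), x ∈ s := by
  rw [ae_iff]
  have hc : {x | ¬ x ∈ s} = sᶜ := rfl
  rw [hc, mix_apply m Ψ hΨ hs.compl]
  have hz : ∀ k, m (Ψ k ⁻¹' sᶜ) = 0 := fun k => h k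
  simp only [hz, mul_zero, add_zero]
/-- three of the five maps put together -/
def trip (Ψ : Fin 5 → E3 → E3) (i j k : Fin 5) (w : E3) : E3 × E3 × E3 := (Ψ i w, Ψ j w, Ψ k w)

theorem measurable_trip (Ψ : Fin 5 → E3 → E3) (hΨ : ∀ k, Measurable (Ψ k)) (i j k : Fin 5) :
    Measurable (trip Ψ i j k) :=
  (hΨ i).prodMk ((hΨ j).prodMk (hΨ k))

/-- the explicit competitor -/
noncomputable def mixCoupling (m : Measure E3) (Ψ : Fin 5 → E3 → E3) : Measure (E3 × E3 × E3) :=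
  (6⁻¹ : ℝ≥0∞) • (m.map (trip Ψ 0 1 2) + m.map (trip Ψ 1 2 0) + m.map (trip Ψ 2 0 1)
    + m.map (trip Ψ 0 3 4) + m.map (trip Ψ 3 4 0) + m.map (trip Ψ 4 0 3))

theorem mixCoupling_apply (m : Measure E3) (Ψ : Fin 5 → E3 → E3) (hΨ : ∀ k, Measurable (Ψ k))
    {s : Set (E3 × E3 × E3)} (hs : MeasurableSet s) :
    mixCoupling m Ψ s = 6⁻¹ * (m (trip Ψ 0 1 2 ⁻¹' s) + m (trip Ψ 1 2 0 ⁻¹' s)
      + m (trip Ψ 2 0 1 ⁻¹' s) + m (trip Ψ 0 3 4 ⁻¹' s) + m (trip Ψ 3 4 0 ⁻¹' s)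
      + m (trip Ψ 4 0 3 ⁻¹' s)) := by
  simp only [mixCoupling, Measure.add_apply, Measure.smul_apply, smul_eq_mul,
    Measure.map_apply (measurable_trip Ψ hΨ _ _ _) hs]

theorem isCoupling_mixCoupling (m : Measure E3) (Ψ : Fin 5 → E3 → E3)
    (hΨ : ∀ k, Measurable (Ψ k)) : IsCoupling (mixMeasure m Ψ) (mixCoupling m Ψ) := by
  refine ⟨?_, ?_, ?_⟩
  · ext s hs
    have hpr : Measurable (fun p : E3 × E3 × E3 => p.1) := measurable_fst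
    rw [Measure.map_apply hpr hs, mixCoupling_apply m Ψ hΨ (hpr hs), mix_apply m Ψ hΨ hs,
      inv_three_eq]
    change 6⁻¹ * (m (Ψ 0 ⁻¹' s) + m (Ψ 1 ⁻¹' s) + m (Ψ 2 ⁻¹' s) + m (Ψ 0 ⁻¹' s) + m (Ψ 3 ⁻¹' s)
      + m (Ψ 4 ⁻¹' s)) = _
    ring
  · ext s hs
    have hpr : Measurable (fun p : E3 × E3 × E3 => p.2.1) := measurable_snd.fst
    rw [Measure.map_apply hpr hs, mixCoupling_apply m Ψ hΨ (hpr hs), mix_apply m Ψ hΨ hs,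
      inv_three_eq]
    change 6⁻¹ * (m (Ψ 1 ⁻¹' s) + m (Ψ 2 ⁻¹' s) + m (Ψ 0 ⁻¹' s) + m (Ψ 3 ⁻¹' s) + m (Ψ 4 ⁻¹' s)
      + m (Ψ 0 ⁻¹' s)) = _
    ring
  · ext s hs
    have hpr : Measurable (fun p : E3 × E3 × E3 => p.2.2) := measurable_snd.snd
    rw [Measure.map_apply hpr hs, mixCoupling_apply m Ψ hΨ (hpr hs), mix_apply m Ψ hΨ hs,
      inv_three_eq]
    change 6⁻¹ * (m (Ψ 2 ⁻¹' s) + m (Ψ 0 ⁻¹' s) + m (Ψ 1 ⁻¹' s) + m (Ψ 4 ⁻¹' s) + m (Ψ 0 ⁻¹' s)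
      + m (Ψ 3 ⁻¹' s)) = _
    ring

theorem coulomb_rot (x y z : E3) : coulomb y z x = coulomb x y z := by
  rw [coulomb_comm23 y z x, coulomb_comm12 y x z]

theorem coulomb_rot' (x y z : E3) : coulomb z x y = coulomb x y z := by
  rw [coulomb_comm12 z x y, coulomb_comm23 x z y]

theorem kantorovich_mix_le (m : Measure E3) (Ψ : Fin 5 → E3 → E3) (hΨ : ∀ k, Measurable (Ψ k)) :
    kantorovich (mixMeasure m Ψ) ≤ 3 * 6⁻¹ * (∫⁻ w, coulomb (Ψ 0 w) (Ψ 1 w) (Ψ 2 w) ∂m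
      + ∫⁻ w, coulomb (Ψ 0 w) (Ψ 3 w) (Ψ 4 w) ∂m) := by
  refine (iInf₂_le (mixCoupling m Ψ) (isCoupling_mixCoupling m Ψ hΨ)).trans (le_of_eq ?_)
  simp only [mixCoupling, lintegral_add_measure, lintegral_smul_measure, smul_eq_mul,
    lintegral_map measurable_coulomb (measurable_trip Ψ hΨ _ _ _), trip, coulomb_rot]
  ring
/-- transport of a function on the parameter set to the image of an injective map -/
theorem exists_transport (B : Set E3) (hB : MeasurableSet B) (φ : E3 → E3) (hφ : Measurable φ)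
    (hinj : Set.InjOn φ B) (u : E3 → ℝ≥0∞) (hu : Measurable u) :
    ∃ v : E3 → ℝ≥0∞, Measurable v ∧ ∀ w ∈ B, v (φ w) = u w := by
  have : StandardBorelSpace B := hB.standardBorel
  have hemb : MeasurableEmbedding (fun w : B => φ w) :=
    Measurable.measurableEmbedding (hφ.comp measurable_subtype_coe)
      (fun a b h => Subtype.ext (hinj a.2 b.2 h))
  obtain ⟨v, hv, hvf⟩ := hemb.exists_measurable_extend (g := fun w : B => u w)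
    (hu.comp measurable_subtype_coe) (fun _ => ⟨0⟩)
  exact ⟨v, hv, fun w hw => congrFun hvf ⟨w, hw⟩⟩

theorem lintegral_three {μ : Measure E3} {T₂ T₃ : E3 → E3} (h2 : Measurable T₂)
    (h3 : Measurable T₃) (hm2 : μ.map T₂ = μ) (hm3 : μ.map T₃ = μ) {a : E3 → ℝ≥0∞}
    (ha : Measurable a) :
    ∫⁻ x, (a x + a (T₂ x) + a (T₃ x)) ∂μ = 3 * ∫⁻ x, a x ∂μ := by
  have ha2 : Measurable (fun x => a (T₂ x)) := ha.comp h2
  have ha3 : Measurable (fun x => a (T₃ x)) := ha.comp h3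
  rw [lintegral_add_right _ ha3, lintegral_add_right _ ha2]
  have e2 : ∫⁻ x, a (T₂ x) ∂μ = ∫⁻ x, a x ∂μ := by
    conv_rhs => rw [← hm2]
    rw [lintegral_map ha h2]
  have e3 : ∫⁻ x, a (T₃ x) ∂μ = ∫⁻ x, a x ∂μ := by
    conv_rhs => rw [← hm3]
    rw [lintegral_map ha h3]
  rw [e2, e3]
  ring

/-- complementary slackness along a Monge triple -/
theorem slack {μ : Measure E3} {T₂ T₃ : E3 → E3} (h2 : Measurable T₂)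
    (h3 : Measurable T₃) (hm2 : μ.map T₂ = μ) (hm3 : μ.map T₃ = μ) {a b e : E3 → ℝ≥0∞}
    (ha : Measurable a) (hb : Measurable b) (he : Measurable e)
    (hle : ∀ᵐ x ∂μ, a x + a (T₂ x) + a (T₃ x) ≤ e x + (b x + b (T₂ x) + b (T₃ x)))
    (hint : ∫⁻ x, e x ∂μ + 3 * ∫⁻ x, b x ∂μ ≤ 3 * ∫⁻ x, a x ∂μ)
    (hfin : ∫⁻ x, a x ∂μ ≠ ⊤) :
    ∀ᵐ x ∂μ, e x + (b x + b (T₂ x) + b (T₃ x)) ≤ a x + a (T₂ x) + a (T₃ x) := by
  have hA := lintegral_three h2 h3 hm2 hm3 ha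
  have hB := lintegral_three h2 h3 hm2 hm3 hb
  have hmb : Measurable (fun x => b x + b (T₂ x) + b (T₃ x)) :=
    (hb.add (hb.comp h2)).add (hb.comp h3)
  have hE : ∫⁻ x, (e x + (b x + b (T₂ x) + b (T₃ x))) ∂μ
      = ∫⁻ x, e x ∂μ + 3 * ∫⁻ x, b x ∂μ := by
    rw [lintegral_add_left he, hB]
  have key := ae_eq_of_ae_le_of_lintegral_le hle
    (by rw [hA]; exact ENNReal.mul_ne_top (by norm_num) hfin)
    (he.add hmb).aemeasurable (by rw [hE, hA]; exact hint)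
  filter_upwards [key] with x hx
  exact hx.ge
theorem sym_cases (Q : E3 → E3 → E3 → Prop) (s12 : ∀ x y z, Q y x z → Q x y z)
    (s23 : ∀ x y z, Q x z y → Q x y z) (A S : Set E3)
    (h0 : ∀ x ∈ S, ∀ y ∈ S, ∀ z ∈ S, Q x y z)
    (h1 : ∀ x ∈ A, ∀ y ∈ S, ∀ z ∈ S, Q x y z)
    (h2 : ∀ x ∈ A, ∀ y ∈ A, ∀ z ∈ A ∪ S, Q x y z) :
    ∀ x ∈ A ∪ S, ∀ y ∈ A ∪ S, ∀ z ∈ A ∪ S, Q x y z := by
  rintro x (hx | hx) y (hy | hy) z (hz | hz)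
  · exact h2 x hx y hy z (Or.inl hz)
  · exact h2 x hx y hy z (Or.inr hz)
  · exact s23 _ _ _ (h2 x hx z hz y (Or.inr hy))
  · exact h1 x hx y hy z hz
  · exact s12 _ _ _ (s23 _ _ _ (h2 y hy z hz x (Or.inr hx)))
  · exact s12 _ _ _ (h1 y hy x hx z hz)
  · exact s23 _ _ _ (s12 _ _ _ (h1 z hz x hx y hy))
  · exact h0 x hx y hy z hz

/-- a pair of potentials on `E3` built from a function on the parameter set (pivot blob) and a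
function on the other blobs -/
structure Pots (B : Set E3) (Ψ : Fin 5 → E3 → E3) (u v p n : E3 → ℝ≥0∞) : Prop where
  mp : Measurable p
  mn : Measurable n
  p_piv : ∀ ω ∈ B, p (Ψ 0 ω) = u ω
  n_piv : ∀ ω ∈ B, n (Ψ 0 ω) = 0
  p_non : ∀ y ∈ nonPivot Ψ B, p y = 0
  n_non : ∀ y ∈ nonPivot Ψ B, n y = v y

theorem nonPivot_not_mem (B : Set E3) (Ψ : Fin 5 → E3 → E3)
    (hdisj : ∀ j k, j ≠ k → Disjoint (Ψ j '' B) (Ψ k '' B)) {y : E3} (hy : y ∈ nonPivot Ψ B) :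
    y ∉ Ψ 0 '' B := by
  obtain ⟨k, hk, ω, hω, rfl⟩ := hy
  intro h
  exact Set.disjoint_left.mp (hdisj k 0 hk) ⟨ω, hω, rfl⟩ h

theorem exists_pots (B : Set E3) (hB : MeasurableSet B) (Ψ : Fin 5 → E3 → E3)
    (hΨ : ∀ k, Measurable (Ψ k)) (hinj : ∀ k, Set.InjOn (Ψ k) B)
    (hdisj : ∀ j k, j ≠ k → Disjoint (Ψ j '' B) (Ψ k '' B))
    (u v : E3 → ℝ≥0∞) (hu : Measurable u) (hv : Measurable v) :
    ∃ p n, Pots B Ψ u v p n := by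
  obtain ⟨ue, hue, htr⟩ := exists_transport B hB (Ψ 0) (hΨ 0) (hinj 0) u hu
  have hA : MeasurableSet (Ψ 0 '' B) := hB.image_of_measurable_injOn (hΨ 0) (hinj 0)
  refine ⟨(Ψ 0 '' B).indicator ue, (Ψ 0 '' B)ᶜ.indicator v, hue.indicator hA,
    hv.indicator hA.compl, ?_, ?_, ?_, ?_⟩
  · intro ω hω
    have hmem : Ψ 0 ω ∈ Ψ 0 '' B := Set.mem_image_of_mem _ hω
    rw [Set.indicator_of_mem hmem, htr ω hω]
  · intro ω hω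
    have hmem : Ψ 0 ω ∈ Ψ 0 '' B := Set.mem_image_of_mem _ hω
    have hnot : Ψ 0 ω ∉ (Ψ 0 '' B)ᶜ := fun h => h hmem
    exact Set.indicator_of_notMem hnot _
  · intro y hy
    exact Set.indicator_of_notMem (nonPivot_not_mem B Ψ hdisj hy) _
  · intro y hy
    exact Set.indicator_of_mem (nonPivot_not_mem B Ψ hdisj hy) _

theorem mem_nonPivot {B : Set E3} {Ψ : Fin 5 → E3 → E3} {k : Fin 5} (hk : k ≠ 0) {ω : E3}
    (hω : ω ∈ B) : Ψ k ω ∈ nonPivot Ψ B := ⟨k, hk, ω, hω, rfl⟩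

theorem Pots.lintegral_p {B : Set E3} {Ψ : Fin 5 → E3 → E3} {u v p n : E3 → ℝ≥0∞}
    (h : Pots B Ψ u v p n) (m : Measure E3) (hmB : m Bᶜ = 0) (hΨ : ∀ k, Measurable (Ψ k)) :
    ∫⁻ x, p x ∂(mixMeasure m Ψ) = 3⁻¹ * ∫⁻ w, u w ∂m := by
  have hae : ∀ᵐ w ∂m, w ∈ B := hmB
  rw [lintegral_mix m Ψ hΨ h.mp]
  have e0 : ∫⁻ w, p (Ψ 0 w) ∂m = ∫⁻ w, u w ∂m :=
    lintegral_congr_ae (hae.mono fun w hw => h.p_piv w hw)
  have ek : ∀ k : Fin 5, k ≠ 0 → ∫⁻ w, p (Ψ k w) ∂m = 0 := by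
    intro k hk
    rw [lintegral_congr_ae (hae.mono fun w hw => h.p_non _ (mem_nonPivot hk hw))]
    simp
  rw [e0, ek 1 (by decide), ek 2 (by decide), ek 3 (by decide), ek 4 (by decide)]
  simp

theorem Pots.lintegral_n {B : Set E3} {Ψ : Fin 5 → E3 → E3} {u v p n : E3 → ℝ≥0∞}
    (h : Pots B Ψ u v p n) (m : Measure E3) (hmB : m Bᶜ = 0) (hΨ : ∀ k, Measurable (Ψ k)) :
    ∫⁻ x, n x ∂(mixMeasure m Ψ) = 6⁻¹ * (∫⁻ w, v (Ψ 1 w) ∂m + ∫⁻ w, v (Ψ 2 w) ∂m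
      + ∫⁻ w, v (Ψ 3 w) ∂m + ∫⁻ w, v (Ψ 4 w) ∂m) := by
  have hae : ∀ᵐ w ∂m, w ∈ B := hmB
  rw [lintegral_mix m Ψ hΨ h.mn]
  have e0 : ∫⁻ w, n (Ψ 0 w) ∂m = 0 := by
    rw [lintegral_congr_ae (hae.mono fun w hw => h.n_piv w hw)]
    simp
  have ek : ∀ k : Fin 5, k ≠ 0 → ∫⁻ w, n (Ψ k w) ∂m = ∫⁻ w, v (Ψ k w) ∂m := by
    intro k hk
    exact lintegral_congr_ae (hae.mono fun w hw => h.n_non _ (mem_nonPivot hk hw))
  rw [e0, ek 1 (by decide), ek 2 (by decide), ek 3 (by decide), ek 4 (by decide)]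
  simp
theorem Pots.p_le {B : Set E3} {Ψ : Fin 5 → E3 → E3} {u v p n : E3 → ℝ≥0∞}
    (h : Pots B Ψ u v p n) {M : ℝ≥0∞} (hM : ∀ ω ∈ B, u ω ≤ M) :
    ∀ z ∈ Ψ 0 '' B ∪ nonPivot Ψ B, p z ≤ M := by
  rintro z (⟨ω, hω, rfl⟩ | hz)
  · rw [h.p_piv ω hω]
    exact hM ω hω
  · rw [h.p_non z hz]
    exact zero_le

theorem Pots.two_piv {B : Set E3} {Ψ : Fin 5 → E3 → E3} {u v p n : E3 → ℝ≥0∞}
    (h : Pots B Ψ u v p n) {M : ℝ≥0∞} (hM : ∀ ω ∈ B, u ω ≤ M)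
    (H2p : ∀ ω ∈ B, ∀ ω' ∈ B, ∀ z, 3 * M < coulomb (Ψ 0 ω) (Ψ 0 ω') z) :
    ∀ x ∈ Ψ 0 '' B, ∀ y ∈ Ψ 0 '' B, ∀ z ∈ Ψ 0 '' B ∪ nonPivot Ψ B,
      p x + p y + p z < coulomb x y z := by
  rintro x hx y hy z hz
  have h1 := h.p_le hM x (Or.inl hx)
  have h2 := h.p_le hM y (Or.inl hy)
  have h3 := h.p_le hM z hz
  obtain ⟨ω, hω, rfl⟩ := hx
  obtain ⟨ω', hω', rfl⟩ := hy
  refine lt_of_le_of_lt ?_ (H2p ω hω ω' hω' z)
  calc p (Ψ 0 ω) + p (Ψ 0 ω') + p z ≤ M + M + M := add_le_add (add_le_add h1 h2) h3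
    _ = 3 * M := by ring

theorem u_ineq {B : Set E3} {Ψ : Fin 5 → E3 → E3} {uP uN p n : E3 → ℝ≥0∞}
    (h : Pots B Ψ uP uN p n) {M : ℝ≥0∞} (hM : ∀ ω ∈ B, uP ω ≤ M)
    (H2p : ∀ ω ∈ B, ∀ ω' ∈ B, ∀ z, 3 * M < coulomb (Ψ 0 ω) (Ψ 0 ω') z)
    (H1 : ∀ ω ∈ B, ∀ y ∈ nonPivot Ψ B, ∀ z ∈ nonPivot Ψ B,
      uP ω ≤ coulomb (Ψ 0 ω) y z + uN y + uN z) :
    ∀ x ∈ Ψ 0 '' B ∪ nonPivot Ψ B, ∀ y ∈ Ψ 0 '' B ∪ nonPivot Ψ B,
      ∀ z ∈ Ψ 0 '' B ∪ nonPivot Ψ B,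
      p x + p y + p z ≤ coulomb x y z + (n x + n y + n z) := by
  apply sym_cases (fun x y z => p x + p y + p z ≤ coulomb x y z + (n x + n y + n z))
  · intro x y z hQ
    have e1 : p x + p y + p z = p y + p x + p z := by ring
    have e2 : n x + n y + n z = n y + n x + n z := by ring
    rw [e1, e2, coulomb_comm12]
    exact hQ
  · intro x y z hQ
    have e1 : p x + p y + p z = p x + p z + p y := by ring
    have e2 : n x + n y + n z = n x + n z + n y := by ring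
    rw [e1, e2, coulomb_comm23]
    exact hQ
  · intro x hx y hy z hz
    rw [h.p_non x hx, h.p_non y hy, h.p_non z hz]
    simp
  · rintro _ ⟨ω, hω, rfl⟩ y hy z hz
    rw [h.p_piv ω hω, h.p_non y hy, h.p_non z hz, h.n_piv ω hω, h.n_non y hy, h.n_non z hz]
    have := H1 ω hω y hy z hz
    simpa [add_assoc] using this
  · intro x hx y hy z hz
    exact (h.two_piv hM H2p x hx y hy z hz).le.trans le_self_add

theorem g_ineq {B : Set E3} {Ψ : Fin 5 → E3 → E3} {uP uN p n gP gQ gp gq : E3 → ℝ≥0∞}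
    (h : Pots B Ψ uP uN p n) (hg : Pots B Ψ gP gQ gp gq) {M : ℝ≥0∞} (hM : ∀ ω ∈ B, uP ω ≤ M)
    (H2p : ∀ ω ∈ B, ∀ ω' ∈ B, ∀ z, 3 * M < coulomb (Ψ 0 ω) (Ψ 0 ω') z)
    (H3 : ∀ ω ∈ B, ∀ y ∈ nonPivot Ψ B, ∀ z ∈ nonPivot Ψ B,
      coulomb (Ψ 0 ω) y z + uN y + uN z ≤ uP ω → gP ω ≤ gQ y + gQ z) :
    ∀ x ∈ Ψ 0 '' B ∪ nonPivot Ψ B, ∀ y ∈ Ψ 0 '' B ∪ nonPivot Ψ B,
      ∀ z ∈ Ψ 0 '' B ∪ nonPivot Ψ B,
      (coulomb x y z + (n x + n y + n z) ≤ p x + p y + p z →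
        gp x + gp y + gp z ≤ 0 + (gq x + gq y + gq z)) := by
  apply sym_cases (fun x y z => coulomb x y z + (n x + n y + n z) ≤ p x + p y + p z →
        gp x + gp y + gp z ≤ 0 + (gq x + gq y + gq z))
  · intro x y z hQ hc
    have e1 : p x + p y + p z = p y + p x + p z := by ring
    have e2 : n x + n y + n z = n y + n x + n z := by ring
    have e3 : gp x + gp y + gp z = gp y + gp x + gp z := by ring
    have e4 : gq x + gq y + gq z = gq y + gq x + gq z := by ring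
    rw [e1, e2, coulomb_comm12] at hc
    rw [e3, e4]
    exact hQ hc
  · intro x y z hQ hc
    have e1 : p x + p y + p z = p x + p z + p y := by ring
    have e2 : n x + n y + n z = n x + n z + n y := by ring
    have e3 : gp x + gp y + gp z = gp x + gp z + gp y := by ring
    have e4 : gq x + gq y + gq z = gq x + gq z + gq y := by ring
    rw [e1, e2, coulomb_comm23] at hc
    rw [e3, e4]
    exact hQ hc
  · intro x hx y hy z hz _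
    rw [hg.p_non x hx, hg.p_non y hy, hg.p_non z hz]
    simp
  · rintro _ ⟨ω, hω, rfl⟩ y hy z hz hc
    rw [h.p_piv ω hω, h.p_non y hy, h.p_non z hz, h.n_piv ω hω, h.n_non y hy, h.n_non z hz] at hc
    rw [hg.p_piv ω hω, hg.p_non y hy, hg.p_non z hz, hg.n_piv ω hω, hg.n_non y hy,
      hg.n_non z hz]
    have := H3 ω hω y hy z hz (by simpa [add_assoc] using hc)
    simpa using this
  · intro x hx y hy z hz hc
    exact absurd ((le_self_add).trans hc) (not_le.mpr (h.two_piv hM H2p x hx y hy z hz))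

/-- analysis of a contact triple whose first point is a pivot -/
theorem contact_piv {B : Set E3} {Ψ : Fin 5 → E3 → E3} {uP uN p n : E3 → ℝ≥0∞}
    (h : Pots B Ψ uP uN p n) {M : ℝ≥0∞} (hM : ∀ ω ∈ B, uP ω ≤ M)
    (H2p : ∀ ω ∈ B, ∀ ω' ∈ B, ∀ z, 3 * M < coulomb (Ψ 0 ω) (Ψ 0 ω') z)
    {ω : E3} (hω : ω ∈ B) {y z : E3} (hy : y ∈ Ψ 0 '' B ∪ nonPivot Ψ B)
    (hz : z ∈ Ψ 0 '' B ∪ nonPivot Ψ B)
    (hc : coulomb (Ψ 0 ω) y z + (n (Ψ 0 ω) + n y + n z) ≤ p (Ψ 0 ω) + p y + p z) :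
    y ∈ nonPivot Ψ B ∧ z ∈ nonPivot Ψ B ∧ coulomb (Ψ 0 ω) y z + uN y + uN z ≤ uP ω := by
  have hx : Ψ 0 ω ∈ Ψ 0 '' B := Set.mem_image_of_mem _ hω
  have hy' : y ∈ nonPivot Ψ B := by
    rcases hy with hy | hy
    · exact absurd ((le_self_add).trans hc) (not_le.mpr (h.two_piv hM H2p _ hx y hy z hz))
    · exact hy
  have hz' : z ∈ nonPivot Ψ B := by
    rcases hz with hz | hz
    · exfalso
      have h2 := h.two_piv hM H2p _ hx z hz y (Or.inr hy')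
      rw [coulomb_comm23] at h2
      have e1 : p (Ψ 0 ω) + p z + p y = p (Ψ 0 ω) + p y + p z := by ring
      rw [e1] at h2
      exact absurd ((le_self_add).trans hc) (not_le.mpr h2)
    · exact hz
  refine ⟨hy', hz', ?_⟩
  rw [h.p_piv ω hω, h.p_non y hy', h.p_non z hz', h.n_piv ω hω, h.n_non y hy',
    h.n_non z hz'] at hc
  simpa [add_assoc] using hc
theorem count_zero (m : Measure E3) [IsProbabilityMeasure m] (B : Set E3) (hB : MeasurableSet B)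
    (hmB : m Bᶜ = 0)
    (Ψ : Fin 5 → E3 → E3) (hΨ : ∀ k, Measurable (Ψ k)) (hinj : ∀ k, Set.InjOn (Ψ k) B)
    (hdisj : ∀ j k, j ≠ k → Disjoint (Ψ j '' B) (Ψ k '' B))
    (T₂ : E3 → E3) (hT : Measurable T₂) (hmap : (mixMeasure m Ψ).map T₂ = mixMeasure m Ψ)
    (k : Fin 5) (hk : k ≠ 0) : m (B ∩ {w | T₂ (Ψ 0 w) = Ψ k w}) = 0 := by
  set Bk : Set E3 := B ∩ {w | T₂ (Ψ 0 w) = Ψ k w} with hBk
  have hBkm : MeasurableSet Bk := hB.inter (measurableSet_eq_fun (hT.comp (hΨ 0)) (hΨ k))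
  have hBkB : Bk ⊆ B := Set.inter_subset_left
  set A : Set E3 := Ψ k '' Bk with hA
  have hAm : MeasurableSet A := hBkm.image_of_measurable_injOn (hΨ k) ((hinj k).mono hBkB)
  have hb : ∀ j : Fin 5, m (Ψ j ⁻¹' A) ≤ if j = k then m Bk else 0 := by
    intro j
    by_cases hj : j = k
    · subst hj
      rw [if_pos rfl]
      have hsub : Ψ j ⁻¹' A ⊆ Bk ∪ Bᶜ := by
        intro w hw
        by_cases hwB : w ∈ B
        · obtain ⟨w', hw', he⟩ := hw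
          have : w' = w := hinj j (hBkB hw') hwB he
          exact Or.inl (this ▸ hw')
        · exact Or.inr hwB
      calc m (Ψ j ⁻¹' A) ≤ m (Bk ∪ Bᶜ) := measure_mono hsub
        _ ≤ m Bk + m Bᶜ := measure_union_le _ _
        _ = m Bk := by rw [hmB, add_zero]
    · rw [if_neg hj]
      have hsub : Ψ j ⁻¹' A ⊆ Bᶜ := by
        intro w hw hwB
        obtain ⟨w', hw', he⟩ := hw
        exact Set.disjoint_left.mp (hdisj j k hj) ⟨w, hwB, rfl⟩ ⟨w', hBkB hw', he⟩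
      exact (measure_mono hsub).trans hmB.le
  have hup : mixMeasure m Ψ A ≤ 6⁻¹ * m Bk := by
    rw [mix_apply m Ψ hΨ hAm]
    have h0 : m (Ψ 0 ⁻¹' A) = 0 := by
      have := hb 0
      rw [if_neg (Ne.symm hk)] at this
      exact le_antisymm this zero_le
    have hsum : m (Ψ 1 ⁻¹' A) + m (Ψ 2 ⁻¹' A) + m (Ψ 3 ⁻¹' A) + m (Ψ 4 ⁻¹' A) ≤ m Bk := by
      refine (add_le_add (add_le_add (add_le_add (hb 1) (hb 2)) (hb 3)) (hb 4)).trans ?_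
      clear_value Bk A
      fin_cases k
      · exact absurd rfl hk
      all_goals simp
    rw [h0, mul_zero, zero_add]
    gcongr
  have hlow : 3⁻¹ * m Bk ≤ mixMeasure m Ψ A := by
    rw [← hmap, Measure.map_apply hT hAm, mix_apply m Ψ hΨ (hT hAm)]
    refine le_trans ?_ le_self_add
    gcongr
    intro w hw
    exact ⟨w, hw, hw.2.symm⟩
  have hfin : m Bk ≠ ⊤ := measure_ne_top m Bk
  have h1 : 2 * 6⁻¹ * m Bk ≤ 6⁻¹ * m Bk := by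
    rw [← inv_three_eq]
    exact hlow.trans hup
  have h2 : m Bk + m Bk ≤ m Bk + 0 := by
    have h3 : (6 : ℝ≥0∞) * (2 * 6⁻¹ * m Bk) ≤ 6 * (6⁻¹ * m Bk) := by gcongr
    have e1 : (6 : ℝ≥0∞) * (2 * 6⁻¹ * m Bk) = (6 * 6⁻¹) * (m Bk + m Bk) := by ring
    have e2 : (6 : ℝ≥0∞) * (6⁻¹ * m Bk) = (6 * 6⁻¹) * (m Bk + 0) := by ring
    rw [e1, e2, six_mul_inv, one_mul, one_mul] at h3
    exact h3
  have h4 := (ENNReal.add_le_add_iff_left hfin).mp h2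
  exact le_antisymm h4 zero_le
theorem measurableSet_blobs (B : Set E3) (hB : MeasurableSet B) (Ψ : Fin 5 → E3 → E3)
    (hΨ : ∀ k, Measurable (Ψ k)) (hinj : ∀ k, Set.InjOn (Ψ k) B) :
    MeasurableSet (Ψ 0 '' B ∪ nonPivot Ψ B) := by
  have himg : ∀ k, MeasurableSet (Ψ k '' B) := fun k =>
    hB.image_of_measurable_injOn (hΨ k) (hinj k)
  have : nonPivot Ψ B = ⋃ (k : Fin 5) (_ : k ≠ 0), Ψ k '' B := by
    ext y
    simp only [nonPivot, Set.mem_ofPred_eq, Set.mem_iUnion, Set.mem_image, exists_prop]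
  rw [this]
  exact (himg 0).union (MeasurableSet.iUnion fun k => MeasurableSet.iUnion fun _ => himg k)

theorem lintegral_split (m : Measure E3) (B : Set E3) (hmB : m Bᶜ = 0) {a b c u : E3 → ℝ≥0∞}
    (hb : Measurable b) (hc : Measurable c) (h : ∀ w ∈ B, a w + b w + c w = u w) :
    ∫⁻ w, a w ∂m + ∫⁻ w, b w ∂m + ∫⁻ w, c w ∂m = ∫⁻ w, u w ∂m := by
  have hae : ∀ᵐ w ∂m, w ∈ B := hmB
  rw [← lintegral_add_right _ hb, ← lintegral_add_right _ hc]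
  exact lintegral_congr_ae (hae.mono fun w hw => h w hw)

theorem lintegral_le_of_bound (m : Measure E3) [IsProbabilityMeasure m] (B : Set E3)
    (hmB : m Bᶜ = 0) {u : E3 → ℝ≥0∞} {M : ℝ≥0∞} (h : ∀ w ∈ B, u w ≤ M) :
    ∫⁻ w, u w ∂m ≤ M := by
  have hae : ∀ᵐ w ∂m, w ∈ B := hmB
  calc ∫⁻ w, u w ∂m ≤ ∫⁻ _w, M ∂m := lintegral_mono_ae (hae.mono fun w hw => h w hw)
    _ = M := by simp

/-- measurability of the cost along a Monge triple -/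
theorem measurable_cost {T₂ T₃ : E3 → E3} (h2 : Measurable T₂) (h3 : Measurable T₃) :
    Measurable (fun x => coulomb x (T₂ x) (T₃ x)) := by
  have h23 : Measurable (fun x : E3 => ((T₂ x, T₃ x) : E3 × E3)) := Measurable.prodMk h2 h3
  have h : Measurable (fun x : E3 => ((x, T₂ x, T₃ x) : E3 × E3 × E3)) :=
    Measurable.prodMk measurable_id h23
  exact Measurable.comp (g := fun p : E3 × E3 × E3 => coulomb p.1 p.2.1 p.2.2)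
    (f := fun x : E3 => ((x, T₂ x, T₃ x) : E3 × E3 × E3)) measurable_coulomb h

theorem ae_blobs (m : Measure E3) (B : Set E3) (hB : MeasurableSet B) (hmB : m Bᶜ = 0)
    (Ψ : Fin 5 → E3 → E3) (hΨ : ∀ k, Measurable (Ψ k)) (hinj : ∀ k, Set.InjOn (Ψ k) B) :
    ∀ᵐ x ∂(mixMeasure m Ψ), x ∈ Ψ 0 '' B ∪ nonPivot Ψ B := by
  have hae : ∀ᵐ w ∂m, w ∈ B := hmB
  refine ae_mix m Ψ hΨ (measurableSet_blobs B hB Ψ hΨ hinj) fun k => hae.mono fun w hw => ?_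
  by_cases hk : k = 0
  · subst hk
    exact Or.inl (Set.mem_image_of_mem _ hw)
  · exact Or.inr (mem_nonPivot hk hw)

/-- first slackness: the cost is in contact with the potentials along an optimal Monge triple -/
theorem contact_u (m : Measure E3) [IsProbabilityMeasure m] (B : Set E3) (hB : MeasurableSet B)
    (hmB : m Bᶜ = 0)
    (Ψ : Fin 5 → E3 → E3) (hΨ : ∀ k, Measurable (Ψ k)) (hinj : ∀ k, Set.InjOn (Ψ k) B)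
    (uP uN p n : E3 → ℝ≥0∞) (huN : Measurable uN) (hpn : Pots B Ψ uP uN p n)
    (M : ℝ≥0∞) (hM : M ≠ ⊤) (huPM : ∀ ω ∈ B, uP ω ≤ M)
    (H2p : ∀ ω ∈ B, ∀ ω' ∈ B, ∀ z, 3 * M < coulomb (Ψ 0 ω) (Ψ 0 ω') z)
    (H1 : ∀ ω ∈ B, ∀ y ∈ nonPivot Ψ B, ∀ z ∈ nonPivot Ψ B,
      uP ω ≤ coulomb (Ψ 0 ω) y z + uN y + uN z)
    (H2a : ∀ ω ∈ B, coulomb (Ψ 0 ω) (Ψ 1 ω) (Ψ 2 ω) + uN (Ψ 1 ω) + uN (Ψ 2 ω) = uP ω)
    (H2b : ∀ ω ∈ B, coulomb (Ψ 0 ω) (Ψ 3 ω) (Ψ 4 ω) + uN (Ψ 3 ω) + uN (Ψ 4 ω) = uP ω)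
    (T₂ T₃ : E3 → E3) (h2 : Measurable T₂) (h3 : Measurable T₃)
    (hm2 : (mixMeasure m Ψ).map T₂ = mixMeasure m Ψ)
    (hm3 : (mixMeasure m Ψ).map T₃ = mixMeasure m Ψ)
    (hopt : ∫⁻ x, coulomb x (T₂ x) (T₃ x) ∂(mixMeasure m Ψ) = kantorovich (mixMeasure m Ψ)) :
    ∀ᵐ x ∂(mixMeasure m Ψ),
      coulomb x (T₂ x) (T₃ x) + (n x + n (T₂ x) + n (T₃ x)) ≤ p x + p (T₂ x) + p (T₃ x) := by
  have hN1 : Measurable (fun w => uN (Ψ 1 w)) := huN.comp (hΨ 1)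
  have hN2 : Measurable (fun w => uN (Ψ 2 w)) := huN.comp (hΨ 2)
  have hN3 : Measurable (fun w => uN (Ψ 3 w)) := huN.comp (hΨ 3)
  have hN4 : Measurable (fun w => uN (Ψ 4 w)) := huN.comp (hΨ 4)
  have hU1 := lintegral_split m B hmB (u := uP) hN1 hN2 H2a
  have hU2 := lintegral_split m B hmB (u := uP) hN3 hN4 H2b
  have hUfin : ∫⁻ w, uP w ∂m ≠ ⊤ :=
    ne_top_of_le_ne_top hM (lintegral_le_of_bound m B hmB huPM)
  have hkant := kantorovich_mix_le m Ψ hΨ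
  have hS := ae_blobs m B hB hmB Ψ hΨ hinj
  have hS2 : ∀ᵐ x ∂(mixMeasure m Ψ), T₂ x ∈ Ψ 0 '' B ∪ nonPivot Ψ B :=
    ae_of_ae_map h2.aemeasurable (by rw [hm2]; exact hS)
  have hS3 : ∀ᵐ x ∂(mixMeasure m Ψ), T₃ x ∈ Ψ 0 '' B ∪ nonPivot Ψ B :=
    ae_of_ae_map h3.aemeasurable (by rw [hm3]; exact hS)
  have hle : ∀ᵐ x ∂(mixMeasure m Ψ), p x + p (T₂ x) + p (T₃ x)
      ≤ coulomb x (T₂ x) (T₃ x) + (n x + n (T₂ x) + n (T₃ x)) := by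
    filter_upwards [hS, hS2, hS3] with x a b c
    exact u_ineq hpn huPM H2p H1 x a _ b _ c
  have hint : ∫⁻ x, coulomb x (T₂ x) (T₃ x) ∂(mixMeasure m Ψ)
      + 3 * ∫⁻ x, n x ∂(mixMeasure m Ψ) ≤ 3 * ∫⁻ x, p x ∂(mixMeasure m Ψ) := by
    rw [hopt, hpn.lintegral_n m hmB hΨ, hpn.lintegral_p m hmB hΨ, inv_three_eq]
    refine (add_le_add_left hkant _).trans (le_of_eq ?_)
    have e : (3 : ℝ≥0∞) * (2 * 6⁻¹ * ∫⁻ w, uP w ∂m)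
        = 3 * 6⁻¹ * (∫⁻ w, uP w ∂m + ∫⁻ w, uP w ∂m) := by ring
    rw [e]
    nth_rewrite 1 [← hU1]
    rw [← hU2]
    ring
  have hfin : ∫⁻ x, p x ∂(mixMeasure m Ψ) ≠ ⊤ := by
    rw [hpn.lintegral_p m hmB hΨ]
    exact ENNReal.mul_ne_top (by simp) hUfin
  exact slack h2 h3 hm2 hm3 hpn.mp hpn.mn (measurable_cost h2 h3) hle hint hfin

/-- second slackness -/
theorem contact_g (m : Measure E3) [IsProbabilityMeasure m] (B : Set E3) (hB : MeasurableSet B)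
    (hmB : m Bᶜ = 0)
    (Ψ : Fin 5 → E3 → E3) (hΨ : ∀ k, Measurable (Ψ k)) (hinj : ∀ k, Set.InjOn (Ψ k) B)
    (uP uN p n gP gQ gp gq : E3 → ℝ≥0∞) (hgQ : Measurable gQ) (hpn : Pots B Ψ uP uN p n)
    (hg : Pots B Ψ gP gQ gp gq)
    (M : ℝ≥0∞) (hM : M ≠ ⊤) (huPM : ∀ ω ∈ B, uP ω ≤ M) (hgPM : ∀ ω ∈ B, gP ω ≤ M)
    (H2p : ∀ ω ∈ B, ∀ ω' ∈ B, ∀ z, 3 * M < coulomb (Ψ 0 ω) (Ψ 0 ω') z)
    (G2a : ∀ ω ∈ B, gQ (Ψ 1 ω) + gQ (Ψ 2 ω) = gP ω)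
    (G2b : ∀ ω ∈ B, gQ (Ψ 3 ω) + gQ (Ψ 4 ω) = gP ω)
    (H3 : ∀ ω ∈ B, ∀ y ∈ nonPivot Ψ B, ∀ z ∈ nonPivot Ψ B,
      coulomb (Ψ 0 ω) y z + uN y + uN z ≤ uP ω → gP ω ≤ gQ y + gQ z)
    (T₂ T₃ : E3 → E3) (h2 : Measurable T₂) (h3 : Measurable T₃)
    (hm2 : (mixMeasure m Ψ).map T₂ = mixMeasure m Ψ)
    (hm3 : (mixMeasure m Ψ).map T₃ = mixMeasure m Ψ)
    (hcontact : ∀ᵐ x ∂(mixMeasure m Ψ),
      coulomb x (T₂ x) (T₃ x) + (n x + n (T₂ x) + n (T₃ x)) ≤ p x + p (T₂ x) + p (T₃ x)) :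
    ∀ᵐ x ∂(mixMeasure m Ψ),
      (0 : ℝ≥0∞) + (gq x + gq (T₂ x) + gq (T₃ x)) ≤ gp x + gp (T₂ x) + gp (T₃ x) := by
  have hN1 : Measurable (fun w => gQ (Ψ 1 w)) := hgQ.comp (hΨ 1)
  have hN2 : Measurable (fun w => gQ (Ψ 2 w)) := hgQ.comp (hΨ 2)
  have hN3 : Measurable (fun w => gQ (Ψ 3 w)) := hgQ.comp (hΨ 3)
  have hN4 : Measurable (fun w => gQ (Ψ 4 w)) := hgQ.comp (hΨ 4)
  have hG1 := lintegral_split m B hmB (a := fun _ => 0) (u := gP) hN1 hN2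
    (fun w hw => by rw [zero_add]; exact G2a w hw)
  have hG2 := lintegral_split m B hmB (a := fun _ => 0) (u := gP) hN3 hN4
    (fun w hw => by rw [zero_add]; exact G2b w hw)
  simp only [lintegral_zero, zero_add] at hG1 hG2
  have hGfin : ∫⁻ w, gP w ∂m ≠ ⊤ :=
    ne_top_of_le_ne_top hM (lintegral_le_of_bound m B hmB hgPM)
  have hS := ae_blobs m B hB hmB Ψ hΨ hinj
  have hS2 : ∀ᵐ x ∂(mixMeasure m Ψ), T₂ x ∈ Ψ 0 '' B ∪ nonPivot Ψ B :=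
    ae_of_ae_map h2.aemeasurable (by rw [hm2]; exact hS)
  have hS3 : ∀ᵐ x ∂(mixMeasure m Ψ), T₃ x ∈ Ψ 0 '' B ∪ nonPivot Ψ B :=
    ae_of_ae_map h3.aemeasurable (by rw [hm3]; exact hS)
  have hGle : ∀ᵐ x ∂(mixMeasure m Ψ), gp x + gp (T₂ x) + gp (T₃ x)
      ≤ (fun _ => (0 : ℝ≥0∞)) x + (gq x + gq (T₂ x) + gq (T₃ x)) := by
    filter_upwards [hS, hS2, hS3, hcontact] with x a b c d
    exact g_ineq hpn hg huPM H2p H3 x a _ b _ c d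
  have hGint : ∫⁻ x, (fun _ => (0 : ℝ≥0∞)) x ∂(mixMeasure m Ψ)
      + 3 * ∫⁻ x, gq x ∂(mixMeasure m Ψ) ≤ 3 * ∫⁻ x, gp x ∂(mixMeasure m Ψ) := by
    rw [hg.lintegral_n m hmB hΨ, hg.lintegral_p m hmB hΨ, inv_three_eq, lintegral_zero, zero_add]
    refine le_of_eq ?_
    have e : (3 : ℝ≥0∞) * (2 * 6⁻¹ * ∫⁻ w, gP w ∂m)
        = 3 * 6⁻¹ * (∫⁻ w, gP w ∂m + ∫⁻ w, gP w ∂m) := by ring
    rw [e]
    nth_rewrite 1 [← hG1]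
    rw [← hG2]
    ring
  have hGfin' : ∫⁻ x, gp x ∂(mixMeasure m Ψ) ≠ ⊤ := by
    rw [hg.lintegral_p m hmB hΨ]
    exact ENNReal.mul_ne_top (by simp) hGfin
  exact slack h2 h3 hm2 hm3 hg.mp hg.mn measurable_const hGle hGint hGfin'

theorem kantorovich_mix_lt_top (m : Measure E3) [IsProbabilityMeasure m] (B : Set E3)
    (hmB : m Bᶜ = 0)
    (Ψ : Fin 5 → E3 → E3) (hΨ : ∀ k, Measurable (Ψ k))
    (uP uN : E3 → ℝ≥0∞) (huN : Measurable uN)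
    (M : ℝ≥0∞) (hM : M ≠ ⊤) (huPM : ∀ ω ∈ B, uP ω ≤ M)
    (H2a : ∀ ω ∈ B, coulomb (Ψ 0 ω) (Ψ 1 ω) (Ψ 2 ω) + uN (Ψ 1 ω) + uN (Ψ 2 ω) = uP ω)
    (H2b : ∀ ω ∈ B, coulomb (Ψ 0 ω) (Ψ 3 ω) (Ψ 4 ω) + uN (Ψ 3 ω) + uN (Ψ 4 ω) = uP ω) :
    kantorovich (mixMeasure m Ψ) < ⊤ := by
  have hN1 : Measurable (fun w => uN (Ψ 1 w)) := huN.comp (hΨ 1)
  have hN2 : Measurable (fun w => uN (Ψ 2 w)) := huN.comp (hΨ 2)
  have hN3 : Measurable (fun w => uN (Ψ 3 w)) := huN.comp (hΨ 3)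
  have hN4 : Measurable (fun w => uN (Ψ 4 w)) := huN.comp (hΨ 4)
  have hU1 := lintegral_split m B hmB (u := uP) hN1 hN2 H2a
  have hU2 := lintegral_split m B hmB (u := uP) hN3 hN4 H2b
  have hUfin : ∫⁻ w, uP w ∂m ≠ ⊤ :=
    ne_top_of_le_ne_top hM (lintegral_le_of_bound m B hmB huPM)
  have h6 : (6⁻¹ : ℝ≥0∞) ≠ ⊤ := by simp
  refine lt_of_le_of_lt (kantorovich_mix_le m Ψ hΨ) ?_
  have hC1 : ∫⁻ w, coulomb (Ψ 0 w) (Ψ 1 w) (Ψ 2 w) ∂m ≠ ⊤ := by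
    refine ne_top_of_le_ne_top hUfin ?_
    rw [← hU1, add_assoc]
    exact le_self_add
  have hC2 : ∫⁻ w, coulomb (Ψ 0 w) (Ψ 3 w) (Ψ 4 w) ∂m ≠ ⊤ := by
    refine ne_top_of_le_ne_top hUfin ?_
    rw [← hU2, add_assoc]
    exact le_self_add
  exact (ENNReal.mul_ne_top (ENNReal.mul_ne_top (by norm_num) h6)
    (ENNReal.add_ne_top.mpr ⟨hC1, hC2⟩)).lt_top

theorem no_monge_abstract
    (m : Measure E3) [IsProbabilityMeasure m] (B : Set E3) (hB : MeasurableSet B)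
    (hmB : m Bᶜ = 0)
    (Ψ : Fin 5 → E3 → E3) (hΨ : ∀ k, Measurable (Ψ k)) (hinj : ∀ k, Set.InjOn (Ψ k) B)
    (hdisj : ∀ j k, j ≠ k → Disjoint (Ψ j '' B) (Ψ k '' B))
    (uP gP uN gQ : E3 → ℝ≥0∞)
    (huP : Measurable uP) (hgP : Measurable gP) (huN : Measurable uN) (hgQ : Measurable gQ)
    (M : ℝ≥0∞) (hM : M ≠ ⊤)
    (huPM : ∀ ω ∈ B, uP ω ≤ M) (hgPM : ∀ ω ∈ B, gP ω ≤ M)
    (huNM : ∀ y ∈ nonPivot Ψ B, uN y ≤ M) (hgQM : ∀ y ∈ nonPivot Ψ B, gQ y ≤ M)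
    (H2p : ∀ ω ∈ B, ∀ ω' ∈ B, ∀ z, 3 * M < coulomb (Ψ 0 ω) (Ψ 0 ω') z)
    (H1 : ∀ ω ∈ B, ∀ y ∈ nonPivot Ψ B, ∀ z ∈ nonPivot Ψ B,
      uP ω ≤ coulomb (Ψ 0 ω) y z + uN y + uN z)
    (H2a : ∀ ω ∈ B, coulomb (Ψ 0 ω) (Ψ 1 ω) (Ψ 2 ω) + uN (Ψ 1 ω) + uN (Ψ 2 ω) = uP ω)
    (H2b : ∀ ω ∈ B, coulomb (Ψ 0 ω) (Ψ 3 ω) (Ψ 4 ω) + uN (Ψ 3 ω) + uN (Ψ 4 ω) = uP ω)
    (G2a : ∀ ω ∈ B, gQ (Ψ 1 ω) + gQ (Ψ 2 ω) = gP ω)
    (G2b : ∀ ω ∈ B, gQ (Ψ 3 ω) + gQ (Ψ 4 ω) = gP ω)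
    (H3 : ∀ ω ∈ B, ∀ y ∈ nonPivot Ψ B, ∀ z ∈ nonPivot Ψ B,
      coulomb (Ψ 0 ω) y z + uN y + uN z ≤ uP ω → gP ω ≤ gQ y + gQ z)
    (H4 : ∀ ω ∈ B, ∀ y ∈ nonPivot Ψ B, ∀ z ∈ nonPivot Ψ B,
      coulomb (Ψ 0 ω) y z + uN y + uN z ≤ uP ω → gQ y + gQ z ≤ gP ω →
        ∃ k : Fin 5, k ≠ 0 ∧ y = Ψ k ω) :
    kantorovich (mixMeasure m Ψ) < ⊤ ∧ ¬ HasOptimalMongePlan (mixMeasure m Ψ) := by
  have hae : ∀ᵐ w ∂m, w ∈ B := hmB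
  refine ⟨kantorovich_mix_lt_top m B hmB Ψ hΨ uP uN huN M hM huPM H2a H2b, ?_⟩
  rintro ⟨T₂, T₃, h2, h3, hm2, hm3, hopt⟩
  obtain ⟨p, n, hpn⟩ := exists_pots B hB Ψ hΨ hinj hdisj uP uN huP huN
  obtain ⟨gp, gq, hg⟩ := exists_pots B hB Ψ hΨ hinj hdisj gP gQ hgP hgQ
  have hS := ae_blobs m B hB hmB Ψ hΨ hinj
  have hS2 : ∀ᵐ x ∂(mixMeasure m Ψ), T₂ x ∈ Ψ 0 '' B ∪ nonPivot Ψ B :=
    ae_of_ae_map h2.aemeasurable (by rw [hm2]; exact hS)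
  have hS3 : ∀ᵐ x ∂(mixMeasure m Ψ), T₃ x ∈ Ψ 0 '' B ∪ nonPivot Ψ B :=
    ae_of_ae_map h3.aemeasurable (by rw [hm3]; exact hS)
  have hcontact := contact_u m B hB hmB Ψ hΨ hinj uP uN p n huN hpn M hM huPM H2p H1 H2a H2b
    T₂ T₃ h2 h3 hm2 hm3 hopt
  have hGcontact := contact_g m B hB hmB Ψ hΨ hinj uP uN p n gP gQ gp gq hgQ hpn hg M hM huPM
    hgPM H2p G2a G2b H3 T₂ T₃ h2 h3 hm2 hm3 hcontact
  have hall : ∀ᵐ x ∂(mixMeasure m Ψ), T₂ x ∈ Ψ 0 '' B ∪ nonPivot Ψ B ∧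
      T₃ x ∈ Ψ 0 '' B ∪ nonPivot Ψ B ∧
      coulomb x (T₂ x) (T₃ x) + (n x + n (T₂ x) + n (T₃ x)) ≤ p x + p (T₂ x) + p (T₃ x) ∧
      (0 : ℝ≥0∞) + (gq x + gq (T₂ x) + gq (T₃ x)) ≤ gp x + gp (T₂ x) + gp (T₃ x) := by
    filter_upwards [hS2, hS3, hcontact, hGcontact] with x a b c d
    exact ⟨a, b, c, d⟩
  have hw := ae_of_ae_map (hΨ 0).aemeasurable ((map_absolutelyContinuous_mix m Ψ).ae_le hall)
  have hex : ∀ᵐ w ∂m, ∃ k : Fin 5, k ≠ 0 ∧ w ∈ B ∩ {w | T₂ (Ψ 0 w) = Ψ k w} := by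
    filter_upwards [hae, hw] with w hwB hw
    obtain ⟨a, b, c, d⟩ := hw
    obtain ⟨hy, hz, hc⟩ := contact_piv hpn huPM H2p hwB a b c
    rw [hg.p_piv w hwB, hg.p_non _ hy, hg.p_non _ hz, hg.n_piv w hwB, hg.n_non _ hy,
      hg.n_non _ hz] at d
    obtain ⟨k, hk, hk'⟩ := H4 w hwB _ hy _ hz hc (by simpa using d)
    exact ⟨k, hk, hwB, hk'⟩
  have hnone : ∀ᵐ w ∂m, ∀ k : Fin 5, k ≠ 0 → w ∉ B ∩ {w | T₂ (Ψ 0 w) = Ψ k w} := by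
    rw [ae_all_iff]
    intro k
    by_cases hk : k = 0
    · exact Eventually.of_forall fun w h => absurd hk h
    · have := count_zero m B hB hmB Ψ hΨ hinj hdisj T₂ h2 hm2 k hk
      exact (measure_eq_zero_iff_ae_notMem.mp this).mono fun w hw _ => hw
  obtain ⟨w, ⟨k, hk, hk'⟩, hno⟩ := (hex.and hnone).exists
  exact hno k hk hk'

end Vale.Agent.P121
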