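import Vale.Agent.P121.Defs

/-!
# P121: the one-parameter family of triangles

Sides `D₁₂ = 2/(3a)`, `D₁₃ = 1/a`, `D₂₃ = 1/s`, weights `(a³, s³, (8/27) s³)`, on the curve
`a³ + (35/27) s³ = 62/27`.  In the plane, `z₁ = (r1, 0)`, `z₂ = (xi2, eta2)`, `z₃ = (xi3, eta3)`
with weighted barycentre at the origin.
-/

open Set Filter Topology

namespace Vale.Agent.P121

noncomputable def aF (s : ℝ) : ℝ := (62 / 27 - 35 / 27 * s ^ 3) ^ ((3 : ℝ)⁻¹)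

noncomputable def R1q (a s : ℝ) : ℝ :=
  ((s ^ 3) ^ 2 * (4 / (9 * a ^ 2)) + (8 / 27 * s ^ 3) ^ 2 * (1 / a ^ 2)
    + s ^ 3 * (8 / 27 * s ^ 3) * (4 / (9 * a ^ 2) + 1 / a ^ 2 - 1 / s ^ 2))
    / (a ^ 3 + 35 / 27 * s ^ 3) ^ 2

noncomputable def R2q (a s : ℝ) : ℝ :=
  ((a ^ 3) ^ 2 * (4 / (9 * a ^ 2)) + (8 / 27 * s ^ 3) ^ 2 * (1 / s ^ 2)
    + a ^ 3 * (8 / 27 * s ^ 3) * (4 / (9 * a ^ 2) + 1 / s ^ 2 - 1 / a ^ 2))
    / (a ^ 3 + 35 / 27 * s ^ 3) ^ 2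

noncomputable def R3q (a s : ℝ) : ℝ :=
  ((a ^ 3) ^ 2 * (1 / a ^ 2) + (s ^ 3) ^ 2 * (1 / s ^ 2)
    + a ^ 3 * s ^ 3 * (1 / a ^ 2 + 1 / s ^ 2 - 4 / (9 * a ^ 2)))
    / (a ^ 3 + 35 / 27 * s ^ 3) ^ 2

noncomputable def c12q (a s : ℝ) : ℝ := (R1q a s + R2q a s - 4 / (9 * a ^ 2)) / 2

noncomputable def r1 (s : ℝ) : ℝ := Real.sqrt (R1q (aF s) s)

noncomputable def xi2 (s : ℝ) : ℝ := c12q (aF s) s / r1 s

noncomputable def eta2 (s : ℝ) : ℝ := Real.sqrt (R2q (aF s) s - xi2 s ^ 2)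

noncomputable def xi3 (s : ℝ) : ℝ := -(aF s ^ 3 * r1 s + s ^ 3 * xi2 s) / (8 / 27 * s ^ 3)

noncomputable def eta3 (s : ℝ) : ℝ := -(27 / 8) * eta2 s

/-- The value of the pivot potential. -/
noncomputable def U1 (s : ℝ) : ℝ :=
  3 / 2 * (5 / 2 * aF s + s) - 31 / 8 * (aF s ^ 3 / s ^ 3) * R1q (aF s) s + 1

/-- Admissible parameters. -/
def Good (s : ℝ) : Prop :=
  0 < s ∧ 0 < 62 / 27 - 35 / 27 * s ^ 3 ∧ 0 < R1q (aF s) s ∧ 0 < R2q (aF s) s - xi2 s ^ 2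

/-! ### Pure rational identities -/

theorem id3 {a s : ℝ} (ha : a ≠ 0) (hs : s ≠ 0) (hd : a ^ 3 + 35 / 27 * s ^ 3 ≠ 0) :
    ((a ^ 3) ^ 2 * R1q a s + (s ^ 3) ^ 2 * R2q a s + 2 * a ^ 3 * s ^ 3 * c12q a s)
      / (8 / 27 * s ^ 3) ^ 2 = R3q a s := by
  unfold c12q R1q R2q R3q
  generalize hD : a ^ 3 + 35 / 27 * s ^ 3 = D at hd ⊢
  field_simp
  subst hD
  ring

theorem id13 {a s : ℝ} (ha : a ≠ 0) (hs : s ≠ 0) (hd : a ^ 3 + 35 / 27 * s ^ 3 ≠ 0) :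
    ((a ^ 3 + 8 / 27 * s ^ 3) ^ 2 * R1q a s + (s ^ 3) ^ 2 * R2q a s
      + 2 * (a ^ 3 + 8 / 27 * s ^ 3) * s ^ 3 * c12q a s) / (8 / 27 * s ^ 3) ^ 2 = 1 / a ^ 2 := by
  unfold c12q R1q R2q
  generalize hD : a ^ 3 + 35 / 27 * s ^ 3 = D at hd ⊢
  field_simp
  subst hD
  ring

theorem id23 {a s : ℝ} (ha : a ≠ 0) (hs : s ≠ 0) (hd : a ^ 3 + 35 / 27 * s ^ 3 ≠ 0) :
    ((a ^ 3) ^ 2 * R1q a s + (s ^ 3 + 8 / 27 * s ^ 3) ^ 2 * R2q a s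
      + 2 * a ^ 3 * (s ^ 3 + 8 / 27 * s ^ 3) * c12q a s) / (8 / 27 * s ^ 3) ^ 2 = 1 / s ^ 2 := by
  unfold c12q R1q R2q
  generalize hD : a ^ 3 + 35 / 27 * s ^ 3 = D at hd ⊢
  field_simp
  subst hD
  ring

theorem idU {a s : ℝ} (ha : a ≠ 0) (hs : s ≠ 0) (hd : a ^ 3 + 35 / 27 * s ^ 3 ≠ 0) :
    8 / 27 * s ^ 3 * (5 / 2 * a + s)
      = (a ^ 3 + 35 / 27 * s ^ 3) * (a ^ 3 * R1q a s + s ^ 3 * R2q a s + 8 / 27 * s ^ 3 * R3q a s) := by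
  unfold R1q R2q R3q
  generalize hD : a ^ 3 + 35 / 27 * s ^ 3 = D at hd ⊢
  field_simp
  subst hD
  ring

/-! ### Algebra for admissible parameters -/

theorem aF_pos {s : ℝ} (h : Good s) : 0 < aF s :=
  Real.rpow_pos_of_pos h.2.1 _

theorem aF_cube_add {s : ℝ} (h : Good s) : aF s ^ 3 + 35 / 27 * s ^ 3 = 62 / 27 := by
  have h1 : aF s ^ 3 = 62 / 27 - 35 / 27 * s ^ 3 := by
    unfold aF
    rw [← Real.rpow_natCast, ← Real.rpow_mul (le_of_lt h.2.1)]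
    norm_num
  rw [h1]; ring

theorem r1_pos {s : ℝ} (h : Good s) : 0 < r1 s :=
  Real.sqrt_pos.mpr h.2.2.1

theorem r1_sq {s : ℝ} (h : Good s) : r1 s ^ 2 = R1q (aF s) s :=
  Real.sq_sqrt (le_of_lt h.2.2.1)

theorem r1_mul_xi2 {s : ℝ} (h : Good s) : r1 s * xi2 s = c12q (aF s) s := by
  have := (r1_pos h).ne'
  unfold xi2
  field_simp

theorem eta2_pos {s : ℝ} (h : Good s) : 0 < eta2 s :=
  Real.sqrt_pos.mpr h.2.2.2

theorem xi2_sq_add_eta2_sq {s : ℝ} (h : Good s) : xi2 s ^ 2 + eta2 s ^ 2 = R2q (aF s) s := by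
  have : eta2 s ^ 2 = R2q (aF s) s - xi2 s ^ 2 := Real.sq_sqrt (le_of_lt h.2.2.2)
  rw [this]; ring

theorem den_ne {s : ℝ} (h : Good s) : aF s ^ 3 + 35 / 27 * s ^ 3 ≠ 0 := by
  rw [aF_cube_add h]; norm_num

theorem xi3_sq_add_eta3_sq {s : ℝ} (h : Good s) : xi3 s ^ 2 + eta3 s ^ 2 = R3q (aF s) s := by
  have ha := (aF_pos h).ne'
  have hs := h.1.ne'
  rw [← id3 ha hs (den_ne h), ← r1_sq h, ← r1_mul_xi2 h, ← xi2_sq_add_eta2_sq h]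
  unfold xi3 eta3
  field_simp
  ring

theorem bary_xi {s : ℝ} (h : Good s) :
    aF s ^ 3 * r1 s + s ^ 3 * xi2 s + 8 / 27 * s ^ 3 * xi3 s = 0 := by
  have hs := h.1.ne'
  unfold xi3
  field_simp
  ring

theorem bary_eta {s : ℝ} (h : Good s) :
    aF s ^ 3 * 0 + s ^ 3 * eta2 s + 8 / 27 * s ^ 3 * eta3 s = 0 := by
  unfold eta3
  ring

theorem d12_sq {s : ℝ} (h : Good s) :
    (r1 s - xi2 s) ^ 2 + (0 - eta2 s) ^ 2 = (2 / (3 * aF s)) ^ 2 := by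
  have ha := (aF_pos h).ne'
  have h1 := r1_sq h
  have h2 := r1_mul_xi2 h
  have h3 := xi2_sq_add_eta2_sq h
  have h4 : c12q (aF s) s = (R1q (aF s) s + R2q (aF s) s - 4 / (9 * aF s ^ 2)) / 2 := rfl
  have h5 : (2 / (3 * aF s)) ^ 2 = 4 / (9 * aF s ^ 2) := by
    field_simp
    ring
  rw [h5]
  linear_combination h1 - 2 * h2 + h3 - 2 * h4

theorem d13_sq {s : ℝ} (h : Good s) :
    (r1 s - xi3 s) ^ 2 + (0 - eta3 s) ^ 2 = (1 / aF s) ^ 2 := by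
  have ha := (aF_pos h).ne'
  have hs := h.1.ne'
  have h5 : (1 / aF s) ^ 2 = 1 / aF s ^ 2 := by
    field_simp
  rw [h5, ← id13 ha hs (den_ne h), ← r1_sq h, ← r1_mul_xi2 h, ← xi2_sq_add_eta2_sq h]
  unfold xi3 eta3
  field_simp
  ring

theorem d23_sq {s : ℝ} (h : Good s) :
    (xi2 s - xi3 s) ^ 2 + (eta2 s - eta3 s) ^ 2 = (1 / s) ^ 2 := by
  have ha := (aF_pos h).ne'
  have hs := h.1.ne'
  have h5 : (1 / s) ^ 2 = 1 / s ^ 2 := by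
    field_simp
  rw [h5, ← id23 ha hs (den_ne h), ← r1_sq h, ← r1_mul_xi2 h, ← xi2_sq_add_eta2_sq h]
  unfold xi3 eta3
  field_simp
  ring

/-- The value of the potential on the configuration (from the Lagrange identity). -/
theorem U1_eq {s : ℝ} (h : Good s) :
    U1 s = 3 / 2 * aF s + aF s + s + 31 / 8 * R2q (aF s) s + (31 / 27 * R3q (aF s) s + 1) := by
  have ha := (aF_pos h).ne'
  have hs := h.1.ne'
  have h1 := idU ha hs (den_ne h)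
  rw [aF_cube_add h] at h1
  have hs3 : s ^ 3 ≠ 0 := pow_ne_zero 3 hs
  have h2 : aF s ^ 3 / s ^ 3 * R1q (aF s) s
      = 4 / 31 * (5 / 2 * aF s + s) - R2q (aF s) s - 8 / 27 * R3q (aF s) s := by
    field_simp
    linear_combination (-(729 : ℝ)) * h1
  unfold U1
  linear_combination (-(31 : ℝ) / 8) * h2

/-! ### Base point `s = 1` -/

theorem aF_one : aF 1 = 1 := by
  unfold aF
  norm_num

theorem R1q_one : R1q 1 1 = 121 / 961 := by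
  unfold R1q; norm_num

theorem R2q_one : R2q 1 1 = 121 / 961 := by
  unfold R2q; norm_num

theorem c12q_one : c12q 1 1 = -833 / 8649 := by
  unfold c12q; rw [R1q_one, R2q_one]; norm_num

theorem r1_one : r1 1 = 11 / 31 := by
  unfold r1
  rw [aF_one, R1q_one, show (121 / 961 : ℝ) = (11 / 31) ^ 2 by norm_num]
  exact Real.sqrt_sq (by norm_num)

theorem xi2_one : xi2 1 = -833 / 3069 := by
  unfold xi2
  rw [aF_one, c12q_one, r1_one]; norm_num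

theorem eta2_one_sq : eta2 1 ^ 2 = 512 / 9801 := by
  unfold eta2
  rw [aF_one, R2q_one, xi2_one, Real.sq_sqrt (by norm_num)]
  norm_num

theorem xi3_one : xi3 1 = -96 / 341 := by
  unfold xi3
  rw [aF_one, r1_one, xi2_one]; norm_num

theorem good_one : Good 1 := by
  refine ⟨by norm_num, by norm_num, ?_, ?_⟩
  · rw [aF_one, R1q_one]; norm_num
  · rw [aF_one, R2q_one, xi2_one]; norm_num

theorem U1_one_lt : U1 1 < 29 / 5 := by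
  unfold U1
  rw [aF_one, R1q_one]; norm_num

end Vale.Agent.P121
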