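import Vale.Agent.P121.Config

/-!
# P121: regularity of the configuration functions at the base point `s = 1`
-/

open Set Filter Topology

namespace Vale.Agent.P121

theorem measurable_aF : Measurable aF := by
  unfold aF
  fun_prop

theorem measurable_R1 : Measurable (fun s => R1q (aF s) s) := by
  have := measurable_aF
  unfold R1q
  fun_prop

theorem measurable_R2 : Measurable (fun s => R2q (aF s) s) := by
  have := measurable_aF
  unfold R2q
  fun_prop

theorem measurable_r1 : Measurable r1 := by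
  have := measurable_R1
  unfold r1
  fun_prop

theorem measurable_xi2 : Measurable xi2 := by
  have h1 := measurable_R1
  have h2 := measurable_R2
  have h3 := measurable_r1
  have h4 := measurable_aF
  unfold xi2 c12q
  fun_prop

theorem measurable_eta2 : Measurable eta2 := by
  have h2 := measurable_R2
  have h3 := measurable_xi2
  unfold eta2
  fun_prop

theorem measurable_xi3 : Measurable xi3 := by
  have h1 := measurable_aF
  have h2 := measurable_r1
  have h3 := measurable_xi2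
  unfold xi3
  fun_prop

theorem measurable_eta3 : Measurable eta3 := by
  have h3 := measurable_eta2
  unfold eta3
  fun_prop

theorem measurable_U1 : Measurable U1 := by
  have h1 := measurable_aF
  have h2 := measurable_R1
  unfold U1
  fun_prop

theorem contDiffAt_aF : ContDiffAt ℝ 1 aF 1 := by
  unfold aF
  apply ContDiffAt.rpow_const_of_ne
  · fun_prop
  · norm_num

theorem contDiffAt_R1 : ContDiffAt ℝ 1 (fun s => R1q (aF s) s) 1 := by
  have h := contDiffAt_aF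
  have h1 := aF_one
  unfold R1q
  fun_prop (disch := (first | (simp only [h1]; norm_num) | norm_num))

theorem contDiffAt_R2 : ContDiffAt ℝ 1 (fun s => R2q (aF s) s) 1 := by
  have h := contDiffAt_aF
  have h1 := aF_one
  unfold R2q
  fun_prop (disch := (first | (simp only [h1]; norm_num) | norm_num))

theorem contDiffAt_r1 : ContDiffAt ℝ 1 r1 1 := by
  unfold r1
  apply ContDiffAt.sqrt contDiffAt_R1
  rw [aF_one, R1q_one]; norm_num

theorem contDiffAt_xi2 : ContDiffAt ℝ 1 xi2 1 := by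
  have h := contDiffAt_aF
  have h1 := aF_one
  have h2 := contDiffAt_R1
  have h3 := contDiffAt_R2
  have h4 := contDiffAt_r1
  have h5 := r1_one
  unfold xi2 c12q
  fun_prop (disch := (first | (simp only [h1, h5]; norm_num) | norm_num))

theorem contDiffAt_eta2 : ContDiffAt ℝ 1 eta2 1 := by
  unfold eta2
  apply ContDiffAt.sqrt (contDiffAt_R2.sub (contDiffAt_xi2.pow 2))
  rw [aF_one, R2q_one, xi2_one]; norm_num

theorem contDiffAt_xi3 : ContDiffAt ℝ 1 xi3 1 := by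
  have h := contDiffAt_aF
  have h4 := contDiffAt_r1
  have h5 := contDiffAt_xi2
  unfold xi3
  fun_prop (disch := norm_num)

theorem contDiffAt_eta3 : ContDiffAt ℝ 1 eta3 1 := by
  have h := contDiffAt_eta2
  unfold eta3
  fun_prop

theorem continuousAt_U1 : ContinuousAt U1 1 := by
  have h := contDiffAt_aF.continuousAt
  have h2 := contDiffAt_R1.continuousAt
  unfold U1
  fun_prop (disch := norm_num)

theorem eventually_good : ∀ᶠ s in 𝓝 (1 : ℝ), Good s := by
  have e1 : ∀ᶠ s in 𝓝 (1 : ℝ), 0 < s := eventually_gt_nhds (by norm_num)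
  have e2 : ∀ᶠ s in 𝓝 (1 : ℝ), 0 < 62 / 27 - 35 / 27 * s ^ 3 := by
    have hc : ContinuousAt (fun s : ℝ => 62 / 27 - 35 / 27 * s ^ 3) 1 := by fun_prop
    exact hc.eventually (lt_mem_nhds (by norm_num))
  have e3 : ∀ᶠ s in 𝓝 (1 : ℝ), 0 < R1q (aF s) s := by
    have hc := contDiffAt_R1.continuousAt
    exact hc.eventually (lt_mem_nhds (by
      show 0 < R1q (aF 1) 1
      rw [aF_one, R1q_one]; norm_num))
  have e4 : ∀ᶠ s in 𝓝 (1 : ℝ), 0 < R2q (aF s) s - xi2 s ^ 2 := by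
    have hc := (contDiffAt_R2.sub (contDiffAt_xi2.pow 2)).continuousAt
    exact hc.eventually (lt_mem_nhds (by
      show 0 < R2q (aF 1) 1 - xi2 1 ^ 2
      rw [aF_one, R2q_one, xi2_one]; norm_num))
  filter_upwards [e1, e2, e3, e4] with s h1 h2 h3 h4
  exact ⟨h1, h2, h3, h4⟩

theorem hasDerivAt_aF : HasDerivAt aF (-(35 / 27)) 1 := by
  unfold aF
  have h0 : HasDerivAt (fun s : ℝ => 62 / 27 - 35 / 27 * s ^ 3) (-(35 / 9)) 1 := by
    have := ((hasDerivAt_pow 3 (1 : ℝ)).const_mul (35 / 27 : ℝ)).const_sub (62 / 27 : ℝ)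
    exact this.congr_deriv (by norm_num)
  have := h0.rpow_const (p := (3 : ℝ)⁻¹) (Or.inl (by norm_num))
  exact this.congr_deriv (by norm_num)

/-- Simplified form of `R1q` on the curve. -/
theorem R1q_curve {s : ℝ} (h : Good s) :
    R1q (aF s) s = (700 / 729 * (s ^ 6 / aF s ^ 2) - 8 / 27 * s ^ 4) / (62 / 27) ^ 2 := by
  have ha := aF_pos h
  have hs := h.1
  unfold R1q
  rw [aF_cube_add h]
  field_simp
  ring

theorem R2q_curve {s : ℝ} (h : Good s) :
    R2q (aF s) s = (4 / 9 * aF s ^ 4 + 64 / 729 * s ^ 4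
      + 8 / 27 * (aF s ^ 3 * s - 5 / 9 * (aF s * s ^ 3))) / (62 / 27) ^ 2 := by
  have ha := aF_pos h
  have hs := h.1
  unfold R2q
  rw [aF_cube_add h]
  field_simp
  ring

theorem R3q_curve {s : ℝ} (h : Good s) :
    R3q (aF s) s = (aF s ^ 4 + s ^ 4 + 5 / 9 * (aF s * s ^ 3) + aF s ^ 3 * s) / (62 / 27) ^ 2 := by
  have ha := aF_pos h
  have hs := h.1
  unfold R3q
  rw [aF_cube_add h]
  field_simp
  ring

theorem hasDerivAt_R1c : HasDerivAt
    (fun s => (700 / 729 * (s ^ 6 / aF s ^ 2) - 8 / 27 * s ^ 4) / (62 / 27) ^ 2)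
    (34768 / 25947) 1 := by
  have ha := hasDerivAt_aF
  have h1 := aF_one
  have hq := (hasDerivAt_pow 6 (1 : ℝ)).div (ha.pow 2) (by
    show aF 1 ^ 2 ≠ 0
    rw [h1]; norm_num)
  have := ((hq.const_mul (700 / 729 : ℝ)).sub
    ((hasDerivAt_pow 4 (1 : ℝ)).const_mul (8 / 27 : ℝ))).div_const ((62 / 27 : ℝ) ^ 2)
  exact this.congr_deriv (by
    simp only [Pi.pow_apply, h1]; norm_num)

theorem hasDerivAt_R2c : HasDerivAt
    (fun s => (4 / 9 * aF s ^ 4 + 64 / 729 * s ^ 4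
      + 8 / 27 * (aF s ^ 3 * s - 5 / 9 * (aF s * s ^ 3))) / (62 / 27) ^ 2)
    (-5068 / 8649) 1 := by
  have ha := hasDerivAt_aF
  have h1 := aF_one
  have := ((((ha.pow 4).const_mul (4 / 9 : ℝ)).add
    ((hasDerivAt_pow 4 (1 : ℝ)).const_mul (64 / 729 : ℝ))).add
    ((((ha.pow 3).mul (hasDerivAt_id (1 : ℝ))).sub
      ((ha.mul (hasDerivAt_pow 3 (1 : ℝ))).const_mul (5 / 9 : ℝ))).const_mul
        (8 / 27 : ℝ))).div_const ((62 / 27 : ℝ) ^ 2)
  exact this.congr_deriv (by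
    simp only [Pi.pow_apply, h1]; norm_num)

theorem hasDerivAt_R3c : HasDerivAt
    (fun s => (aF s ^ 4 + s ^ 4 + 5 / 9 * (aF s * s ^ 3) + aF s ^ 3 * s) / (62 / 27) ^ 2)
    (-570 / 961) 1 := by
  have ha := hasDerivAt_aF
  have h1 := aF_one
  have := ((((ha.pow 4).add (hasDerivAt_pow 4 (1 : ℝ))).add
    ((ha.mul (hasDerivAt_pow 3 (1 : ℝ))).const_mul (5 / 9 : ℝ))).add
    ((ha.pow 3).mul (hasDerivAt_id (1 : ℝ)))).div_const ((62 / 27 : ℝ) ^ 2)
  exact this.congr_deriv (by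
    simp only [Pi.pow_apply, h1]; norm_num)

theorem deriv_R1 : deriv (fun s => r1 s ^ 2 + (0 : ℝ) ^ 2) 1 ≠ 0 := by
  have he : (fun s => r1 s ^ 2 + (0 : ℝ) ^ 2) =ᶠ[𝓝 1]
      (fun s => (700 / 729 * (s ^ 6 / aF s ^ 2) - 8 / 27 * s ^ 4) / (62 / 27) ^ 2) := by
    filter_upwards [eventually_good] with s hs
    rw [r1_sq hs, R1q_curve hs]; ring
  rw [he.deriv_eq, hasDerivAt_R1c.deriv]
  norm_num

theorem deriv_R2 : deriv (fun s => xi2 s ^ 2 + eta2 s ^ 2) 1 ≠ 0 := by
  have he : (fun s => xi2 s ^ 2 + eta2 s ^ 2) =ᶠ[𝓝 1]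
      (fun s => (4 / 9 * aF s ^ 4 + 64 / 729 * s ^ 4
      + 8 / 27 * (aF s ^ 3 * s - 5 / 9 * (aF s * s ^ 3))) / (62 / 27) ^ 2) := by
    filter_upwards [eventually_good] with s hs
    rw [xi2_sq_add_eta2_sq hs, R2q_curve hs]
  rw [he.deriv_eq, hasDerivAt_R2c.deriv]
  norm_num

theorem deriv_R2' : deriv (fun s => xi2 s ^ 2 + (-eta2 s) ^ 2) 1 ≠ 0 := by
  have : (fun s => xi2 s ^ 2 + (-eta2 s) ^ 2) = (fun s => xi2 s ^ 2 + eta2 s ^ 2) := by
    funext s; ring
  rw [this]; exact deriv_R2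

theorem deriv_R3 : deriv (fun s => xi3 s ^ 2 + eta3 s ^ 2) 1 ≠ 0 := by
  have he : (fun s => xi3 s ^ 2 + eta3 s ^ 2) =ᶠ[𝓝 1]
      (fun s => (aF s ^ 4 + s ^ 4 + 5 / 9 * (aF s * s ^ 3) + aF s ^ 3 * s) / (62 / 27) ^ 2) := by
    filter_upwards [eventually_good] with s hs
    rw [xi3_sq_add_eta3_sq hs, R3q_curve hs]
  rw [he.deriv_eq, hasDerivAt_R3c.deriv]
  norm_num

theorem deriv_R3' : deriv (fun s => xi3 s ^ 2 + (-eta3 s) ^ 2) 1 ≠ 0 := by
  have : (fun s => xi3 s ^ 2 + (-eta3 s) ^ 2) = (fun s => xi3 s ^ 2 + eta3 s ^ 2) := by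
    funext s; ring
  rw [this]; exact deriv_R3

end Vale.Agent.P121
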