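import Mathlib

/-!
# P121: definitions for the three-marginal Coulomb optimal transport problem on `ℝ³`
-/

open MeasureTheory
open scoped ENNReal

namespace Vale.Agent.P121

/-- Euclidean three-space. -/
abbrev E3 : Type := EuclideanSpace ℝ (Fin 3)

/-- The Coulomb cost `1/|x-y| + 1/|x-z| + 1/|y-z|`, with value `⊤` when two points coincide. -/
noncomputable def coulomb (x y z : E3) : ℝ≥0∞ :=
  (ENNReal.ofReal (dist x y))⁻¹ + (ENNReal.ofReal (dist x z))⁻¹ + (ENNReal.ofReal (dist y z))⁻¹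

/-- `π` is a coupling whose three coordinate marginals all equal `μ`. -/
def IsCoupling (μ : Measure E3) (π : Measure (E3 × E3 × E3)) : Prop :=
  π.map (fun p => p.1) = μ ∧ π.map (fun p => p.2.1) = μ ∧ π.map (fun p => p.2.2) = μ

/-- The Kantorovich value: infimum of the Coulomb cost over all couplings. -/
noncomputable def kantorovich (μ : Measure E3) : ℝ≥0∞ :=
  ⨅ (π : Measure (E3 × E3 × E3)) (_ : IsCoupling μ π), ∫⁻ p, coulomb p.1 p.2.1 p.2.2 ∂π

/-- `μ` admits an optimal Monge plan `(Id, T₂, T₃)_# μ`. -/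
def HasOptimalMongePlan (μ : Measure E3) : Prop :=
  ∃ T₂ T₃ : E3 → E3, Measurable T₂ ∧ Measurable T₃ ∧ μ.map T₂ = μ ∧ μ.map T₃ = μ ∧
    ∫⁻ x, coulomb x (T₂ x) (T₃ x) ∂μ = kantorovich μ

end Vale.Agent.P121
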