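import Vale.Agent.P121.Param

/-!
# P121: elementary properties of `frame` and `Psi`
-/

open MeasureTheory Set Filter Topology
open scoped ENNReal

namespace Vale.Agent.P121

/-- Distance to the vertical axis. -/
noncomputable def rho (y : E3) : ℝ := Real.sqrt (y 0 ^ 2 + y 1 ^ 2)

theorem rho_nonneg (y : E3) : 0 ≤ rho y := Real.sqrt_nonneg _

theorem measurable_rho : Measurable rho := by
  unfold rho
  fun_prop

theorem frame_zero_coord (u v χ φ : ℝ) :
    frame u v χ φ 0 = (u * Real.cos χ - v * Real.sin χ) * Real.cos φ := rfl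

theorem frame_one_coord (u v χ φ : ℝ) :
    frame u v χ φ 1 = (u * Real.cos χ - v * Real.sin χ) * Real.sin φ := rfl

theorem frame_two_coord (u v χ φ : ℝ) :
    frame u v χ φ 2 = u * Real.sin χ + v * Real.cos χ := rfl

theorem norm_sq_E3 (y : E3) : ‖y‖ ^ 2 = y 0 ^ 2 + y 1 ^ 2 + y 2 ^ 2 := by
  rw [EuclideanSpace.norm_sq_eq, Fin.sum_univ_three]
  simp only [Real.norm_eq_abs, sq_abs]

theorem rho_le_norm (y : E3) : rho y ≤ ‖y‖ := by
  unfold rho
  apply Real.sqrt_le_iff.mpr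
  refine ⟨norm_nonneg _, ?_⟩
  rw [norm_sq_E3]
  nlinarith [sq_nonneg (y 2)]

theorem norm_sq_frame (u v χ φ : ℝ) : ‖frame u v χ φ‖ ^ 2 = u ^ 2 + v ^ 2 := by
  rw [norm_sq_E3, frame_zero_coord, frame_one_coord, frame_two_coord]
  have h1 := Real.sin_sq_add_cos_sq χ
  have h2 := Real.sin_sq_add_cos_sq φ
  linear_combination (u * Real.cos χ - v * Real.sin χ) ^ 2 * h2 + (u ^ 2 + v ^ 2) * h1

theorem dist_sq_frame (u v u' v' χ φ : ℝ) :
    dist (frame u v χ φ) (frame u' v' χ φ) ^ 2 = (u - u') ^ 2 + (v - v') ^ 2 := by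
  have e : frame u v χ φ - frame u' v' χ φ = frame (u - u') (v - v') χ φ := by
    ext i
    fin_cases i
    · show frame u v χ φ 0 - frame u' v' χ φ 0 = frame (u - u') (v - v') χ φ 0
      simp only [frame_zero_coord]
      ring
    · show frame u v χ φ 1 - frame u' v' χ φ 1 = frame (u - u') (v - v') χ φ 1
      simp only [frame_one_coord]
      ring
    · show frame u v χ φ 2 - frame u' v' χ φ 2 = frame (u - u') (v - v') χ φ 2
      simp only [frame_two_coord]
      ring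
  rw [dist_eq_norm, e, norm_sq_frame]

theorem frame_lin3 (c₁ c₂ c₃ u₁ v₁ u₂ v₂ u₃ v₃ χ φ : ℝ) :
    c₁ • frame u₁ v₁ χ φ + c₂ • frame u₂ v₂ χ φ + c₃ • frame u₃ v₃ χ φ
      = frame (c₁ * u₁ + c₂ * u₂ + c₃ * u₃) (c₁ * v₁ + c₂ * v₂ + c₃ * v₃) χ φ := by
  ext i
  fin_cases i
  · show c₁ * frame u₁ v₁ χ φ 0 + c₂ * frame u₂ v₂ χ φ 0 + c₃ * frame u₃ v₃ χ φ 0 = frame _ _ χ φ 0
    simp only [frame_zero_coord]
    ring
  · show c₁ * frame u₁ v₁ χ φ 1 + c₂ * frame u₂ v₂ χ φ 1 + c₃ * frame u₃ v₃ χ φ 1 = frame _ _ χ φ 1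
    simp only [frame_one_coord]
    ring
  · show c₁ * frame u₁ v₁ χ φ 2 + c₂ * frame u₂ v₂ χ φ 2 + c₃ * frame u₃ v₃ χ φ 2 = frame _ _ χ φ 2
    simp only [frame_two_coord]
    ring

theorem frame_zero (χ φ : ℝ) : frame 0 0 χ φ = 0 := by
  rw [← norm_eq_zero, ← sq_eq_zero_iff, norm_sq_frame]
  ring

theorem rho_frame (u v χ φ : ℝ) :
    rho (frame u v χ φ) = |u * Real.cos χ - v * Real.sin χ| := by
  unfold rho
  rw [frame_zero_coord, frame_one_coord, ← Real.sqrt_sq_eq_abs]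
  congr 1
  have h2 := Real.sin_sq_add_cos_sq φ
  linear_combination (u * Real.cos χ - v * Real.sin χ) ^ 2 * h2

/-- The horizontal component in the direction of longitude `φ` is at most `rho`. -/
theorem neg_horiz_le_rho (y : E3) (φ : ℝ) :
    -(y 0 * Real.cos φ + y 1 * Real.sin φ) ≤ rho y := by
  unfold rho
  apply Real.le_sqrt_of_sq_le
  have h2 := Real.sin_sq_add_cos_sq φ
  have key : y 0 ^ 2 + y 1 ^ 2 - (-(y 0 * Real.cos φ + y 1 * Real.sin φ)) ^ 2
      = (y 1 * Real.cos φ - y 0 * Real.sin φ) ^ 2 := by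
    linear_combination (y 0 ^ 2 + y 1 ^ 2) * (-h2)
  nlinarith [sq_nonneg (y 1 * Real.cos φ - y 0 * Real.sin φ)]

/-- Equality case: the point lies in the meridian plane of longitude `φ`. -/
theorem meridian_of_rho_le (y : E3) (φ : ℝ)
    (h : rho y ≤ -(y 0 * Real.cos φ + y 1 * Real.sin φ)) :
    y 1 * Real.cos φ = y 0 * Real.sin φ := by
  have h2 := Real.sin_sq_add_cos_sq φ
  have key : y 0 ^ 2 + y 1 ^ 2 - (-(y 0 * Real.cos φ + y 1 * Real.sin φ)) ^ 2
      = (y 1 * Real.cos φ - y 0 * Real.sin φ) ^ 2 := by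
    linear_combination (y 0 ^ 2 + y 1 ^ 2) * (-h2)
  have h3 : rho y ^ 2 = y 0 ^ 2 + y 1 ^ 2 := by
    unfold rho
    exact Real.sq_sqrt (by positivity)
  have h4 : rho y ^ 2 ≤ (-(y 0 * Real.cos φ + y 1 * Real.sin φ)) ^ 2 :=
    pow_le_pow_left₀ (rho_nonneg y) h 2
  have h5 : (y 1 * Real.cos φ - y 0 * Real.sin φ) ^ 2 ≤ 0 := by linarith
  have h6 : y 1 * Real.cos φ - y 0 * Real.sin φ = 0 := by
    have := le_antisymm h5 (sq_nonneg _)
    exact pow_eq_zero_iff (two_ne_zero) |>.mp this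
  linarith

/-- Every point of the meridian plane of longitude `φ` is a `frame`. -/
theorem eq_frame_of_meridian (y : E3) (χ φ : ℝ) (h : y 1 * Real.cos φ = y 0 * Real.sin φ) :
    y = frame ((y 0 * Real.cos φ + y 1 * Real.sin φ) * Real.cos χ + y 2 * Real.sin χ)
          (-(y 0 * Real.cos φ + y 1 * Real.sin φ) * Real.sin χ + y 2 * Real.cos χ) χ φ := by
  have h1 := Real.sin_sq_add_cos_sq χ
  have h2 := Real.sin_sq_add_cos_sq φ
  ext i
  fin_cases i
  · show y 0 = frame _ _ χ φ 0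
    rw [frame_zero_coord]
    linear_combination (-(y 0 * Real.cos φ + y 1 * Real.sin φ) * Real.cos φ) * h1
      - y 0 * h2 - Real.sin φ * h
  · show y 1 = frame _ _ χ φ 1
    rw [frame_one_coord]
    linear_combination (-(y 0 * Real.cos φ + y 1 * Real.sin φ) * Real.sin φ) * h1
      - y 1 * h2 + Real.cos φ * h
  · show y 2 = frame _ _ χ φ 2
    rw [frame_two_coord]
    linear_combination (-y 2) * h1

theorem measurable_Psi (ξ η : ℝ → ℝ) (hξ : Measurable ξ) (hη : Measurable η) :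
    Measurable (Psi ξ η) := by
  have h : Measurable (fun ω : E3 => (WithLp.toLp 2 (fun i : Fin 3 => Psi ξ η ω i) : E3)) := by
    apply (WithLp.measurable_toLp 2 (Fin 3 → ℝ)).comp
    rw [measurable_pi_iff]
    intro i
    fin_cases i
    · show Measurable (fun ω : E3 => frame (ξ (ω 0)) (η (ω 0)) (ω 1) (ω 2) 0)
      simp only [frame_zero_coord]
      fun_prop
    · show Measurable (fun ω : E3 => frame (ξ (ω 0)) (η (ω 0)) (ω 1) (ω 2) 1)
      simp only [frame_one_coord]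
      fun_prop
    · show Measurable (fun ω : E3 => frame (ξ (ω 0)) (η (ω 0)) (ω 1) (ω 2) 2)
      simp only [frame_two_coord]
      fun_prop
  exact h

theorem continuousAt_Psi (ξ η : ℝ → ℝ) (ω : E3) (hξ : ContinuousAt ξ (ω 0))
    (hη : ContinuousAt η (ω 0)) : ContinuousAt (Psi ξ η) ω := by
  have hξ' : ContinuousAt (fun ω : E3 => ξ (ω 0)) ω :=
    ContinuousAt.comp (f := fun ω : E3 => ω 0) hξ (by fun_prop)
  have hη' : ContinuousAt (fun ω : E3 => η (ω 0)) ω :=
    ContinuousAt.comp (f := fun ω : E3 => ω 0) hη (by fun_prop)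
  have h : ContinuousAt (fun ω : E3 => (WithLp.toLp 2 (fun i : Fin 3 => Psi ξ η ω i) : E3)) ω := by
    apply (PiLp.continuous_toLp 2 (fun _ : Fin 3 => ℝ)).continuousAt.comp
    rw [continuousAt_pi]
    intro i
    fin_cases i
    · show ContinuousAt (fun ω : E3 => frame (ξ (ω 0)) (η (ω 0)) (ω 1) (ω 2) 0) ω
      simp only [frame_zero_coord]
      fun_prop
    · show ContinuousAt (fun ω : E3 => frame (ξ (ω 0)) (η (ω 0)) (ω 1) (ω 2) 1) ω
      simp only [frame_one_coord]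
      fun_prop
    · show ContinuousAt (fun ω : E3 => frame (ξ (ω 0)) (η (ω 0)) (ω 1) (ω 2) 2) ω
      simp only [frame_two_coord]
      fun_prop
  exact h

end Vale.Agent.P121
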