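import Vale.Agent.P121.Defs

/-!
# P121: basic facts on the Coulomb cost and the tight three-body inequality
-/

open MeasureTheory Set Filter Topology
open scoped ENNReal

namespace Vale.Agent.P121

theorem coulomb_comm12 (x y z : E3) : coulomb x y z = coulomb y x z := by
  unfold coulomb
  rw [dist_comm y x]
  ring

theorem coulomb_comm23 (x y z : E3) : coulomb x y z = coulomb x z y := by
  unfold coulomb
  rw [dist_comm z y]
  ring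

theorem coulomb_ne_zero (x y z : E3) : coulomb x y z ≠ 0 := by
  unfold coulomb
  intro h
  have h1 : (ENNReal.ofReal (dist x y))⁻¹ = 0 := by
    have h2 := (add_eq_zero.mp h).1
    exact (add_eq_zero.mp h2).1
  exact (ENNReal.inv_ne_zero.mpr ENNReal.ofReal_ne_top) h1

theorem measurable_coulomb :
    Measurable (fun p : E3 × E3 × E3 => coulomb p.1 p.2.1 p.2.2) := by
  unfold coulomb
  have h1 : Measurable (fun p : E3 × E3 × E3 => p.1) := measurable_fst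
  have h2 : Measurable (fun p : E3 × E3 × E3 => p.2.1) := measurable_snd.fst
  have h3 : Measurable (fun p : E3 × E3 × E3 => p.2.2) := measurable_snd.snd
  exact (((h1.dist h2).ennreal_ofReal.inv).add ((h1.dist h3).ennreal_ofReal.inv)).add
    ((h2.dist h3).ennreal_ofReal.inv)

theorem inv_ofReal_dist {x y : E3} (hxy : x ≠ y) :
    (ENNReal.ofReal (dist x y))⁻¹ = ENNReal.ofReal (1 / dist x y) := by
  rw [one_div, ENNReal.ofReal_inv_of_pos (dist_pos.mpr hxy)]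

theorem coulomb_eq_ofReal {x y z : E3} (hxy : x ≠ y) (hxz : x ≠ z) (hyz : y ≠ z) :
    coulomb x y z = ENNReal.ofReal (1 / dist x y + 1 / dist x z + 1 / dist y z) := by
  unfold coulomb
  rw [inv_ofReal_dist hxy, inv_ofReal_dist hxz, inv_ofReal_dist hyz,
    ENNReal.ofReal_add (by positivity) (by positivity),
    ENNReal.ofReal_add (by positivity) (by positivity)]

theorem coulomb_eq_top_of_eq12 (x z : E3) : coulomb x x z = ⊤ := by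
  unfold coulomb
  simp

theorem coulomb_eq_top_of_eq13 (x y : E3) : coulomb x y x = ⊤ := by
  unfold coulomb
  simp

theorem coulomb_eq_top_of_eq23 (x y : E3) : coulomb x y y = ⊤ := by
  unfold coulomb
  simp

/-- If the first two points are closer than `d`, the cost exceeds `1/d`. -/
theorem lt_coulomb_of_dist_lt {x y : E3} (z : E3) {d : ℝ} (hd : 0 < d) (h : dist x y < d) :
    ENNReal.ofReal (1 / d) < coulomb x y z := by
  have h1 : ENNReal.ofReal (1 / d) < (ENNReal.ofReal (dist x y))⁻¹ := by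
    rw [one_div, ENNReal.ofReal_inv_of_pos hd]
    exact ENNReal.inv_lt_inv.mpr ((ENNReal.ofReal_lt_ofReal_iff hd).mpr h)
  refine lt_of_lt_of_le h1 ?_
  unfold coulomb
  rw [add_assoc]
  exact le_self_add

/-- From a real inequality (for pairwise distinct points) to the extended-real one. -/
theorem ofReal_le_coulomb_add (x y z : E3) (A b c : ℝ) (hb : 0 ≤ b) (hc : 0 ≤ c)
    (h : x ≠ y → x ≠ z → y ≠ z → A ≤ 1 / dist x y + 1 / dist x z + 1 / dist y z + b + c) :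
    ENNReal.ofReal A ≤ coulomb x y z + ENNReal.ofReal b + ENNReal.ofReal c := by
  by_cases hxy : x = y
  · subst hxy
    rw [coulomb_eq_top_of_eq12]
    simp
  by_cases hxz : x = z
  · subst hxz
    rw [coulomb_eq_top_of_eq13]
    simp
  by_cases hyz : y = z
  · subst hyz
    rw [coulomb_eq_top_of_eq23]
    simp
  rw [coulomb_eq_ofReal hxy hxz hyz, ← ENNReal.ofReal_add (by positivity) hb,
    ← ENNReal.ofReal_add (by positivity) hc]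
  exact ENNReal.ofReal_le_ofReal (h hxy hxz hyz)

/-- Conversely. -/
theorem real_le_of_coulomb_add_le (x y z : E3) (A b c : ℝ) (hb : 0 ≤ b) (hc : 0 ≤ c)
    (h : coulomb x y z + ENNReal.ofReal b + ENNReal.ofReal c ≤ ENNReal.ofReal A) :
    x ≠ y ∧ x ≠ z ∧ y ≠ z ∧ 1 / dist x y + 1 / dist x z + 1 / dist y z + b + c ≤ A := by
  have hxy : x ≠ y := by
    intro hxy
    subst hxy
    rw [coulomb_eq_top_of_eq12] at h
    simp at h
  have hxz : x ≠ z := by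
    intro hxz
    subst hxz
    rw [coulomb_eq_top_of_eq13] at h
    simp at h
  have hyz : y ≠ z := by
    intro hyz
    subst hyz
    rw [coulomb_eq_top_of_eq23] at h
    simp at h
  refine ⟨hxy, hxz, hyz, ?_⟩
  rw [coulomb_eq_ofReal hxy hxz hyz, ← ENNReal.ofReal_add (by positivity) hb,
    ← ENNReal.ofReal_add (by positivity) hc] at h
  have hpos : 0 < 1 / dist x y + 1 / dist x z + 1 / dist y z + b + c := by
    have := dist_pos.mpr hxy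
    positivity
  rcases ENNReal.ofReal_le_ofReal_iff'.mp h with h1 | h1
  · exact h1
  · exact absurd h1 (not_le.mpr hpos)

/-- Tangent line inequality: `1/d ≥ (3/2) p - (1/2) p³ d²`, i.e. `(pd-1)²(pd+2) ≥ 0`. -/
theorem tangent_ineq (p d : ℝ) (hp : 0 < p) (hd : 0 < d) :
    3 / 2 * p - 1 / 2 * p ^ 3 * d ^ 2 ≤ 1 / d := by
  rw [le_div_iff₀ hd]
  have h1 : 0 ≤ (p * d - 1) ^ 2 * (p * d + 2) := by positivity
  nlinarith [h1]

theorem tangent_eq (p d : ℝ) (hp : 0 < p) (hd : 0 < d)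
    (h : 1 / d ≤ 3 / 2 * p - 1 / 2 * p ^ 3 * d ^ 2) : d = 1 / p := by
  rw [div_le_iff₀ hd] at h
  have h1 : (p * d - 1) ^ 2 * (p * d + 2) ≤ 0 := by nlinarith [h]
  have h2 : 0 < p * d + 2 := by positivity
  have h3 : (p * d - 1) ^ 2 ≤ 0 := by
    by_contra hcon
    rw [not_le] at hcon
    have := mul_pos hcon h2
    linarith
  have h4 : p * d - 1 = 0 := by
    have h5 : (p * d - 1) ^ 2 = 0 := le_antisymm h3 (sq_nonneg _)
    exact pow_eq_zero_iff (two_ne_zero) |>.mp h5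
  rw [eq_div_iff hp.ne']
  linarith

theorem dist_sq_expand (x y : E3) :
    dist x y ^ 2 = ‖x‖ ^ 2 - 2 * inner ℝ x y + ‖y‖ ^ 2 := by
  rw [dist_eq_norm, norm_sub_sq_real]

theorem norm_comb_sq (x₁ x₂ x₃ : E3) (w₁ w₂ w₃ : ℝ) :
    ‖w₁ • x₁ + w₂ • x₂ + w₃ • x₃‖ ^ 2
      = w₁ ^ 2 * ‖x₁‖ ^ 2 + w₂ ^ 2 * ‖x₂‖ ^ 2 + w₃ ^ 2 * ‖x₃‖ ^ 2
        + 2 * (w₁ * w₂) * inner ℝ x₁ x₂ + 2 * (w₁ * w₃) * inner ℝ x₁ x₃
        + 2 * (w₂ * w₃) * inner ℝ x₂ x₃ := by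
  rw [norm_add_sq_real, norm_add_sq_real, inner_add_left, inner_smul_left, inner_smul_left,
    inner_smul_left, inner_smul_right, inner_smul_right, inner_smul_right, norm_smul, norm_smul,
    norm_smul, mul_pow, mul_pow, mul_pow, Real.norm_eq_abs, Real.norm_eq_abs, Real.norm_eq_abs,
    sq_abs, sq_abs, sq_abs]
  simp only [conj_trivial]
  ring

/-- Lagrange identity. -/
theorem lagrange_identity (x₁ x₂ x₃ : E3) (w₁ w₂ w₃ : ℝ) :
    w₁ * w₂ * dist x₁ x₂ ^ 2 + w₁ * w₃ * dist x₁ x₃ ^ 2 + w₂ * w₃ * dist x₂ x₃ ^ 2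
      = (w₁ + w₂ + w₃) * (w₁ * ‖x₁‖ ^ 2 + w₂ * ‖x₂‖ ^ 2 + w₃ * ‖x₃‖ ^ 2)
        - ‖w₁ • x₁ + w₂ • x₂ + w₃ • x₃‖ ^ 2 := by
  rw [norm_comb_sq, dist_sq_expand, dist_sq_expand, dist_sq_expand]
  ring

theorem tight_key (x₁ x₂ x₃ : E3) (p q r w₁ w₂ w₃ θ : ℝ)
    (hθ : 0 < θ) (h12 : w₁ * w₂ = θ * p ^ 3) (h13 : w₁ * w₃ = θ * q ^ 3)
    (h23 : w₂ * w₃ = θ * r ^ 3) :
    (w₁ + w₂ + w₃) / (2 * θ) * (w₁ * ‖x₁‖ ^ 2 + w₂ * ‖x₂‖ ^ 2 + w₃ * ‖x₃‖ ^ 2)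
      = 1 / 2 * p ^ 3 * dist x₁ x₂ ^ 2 + 1 / 2 * q ^ 3 * dist x₁ x₃ ^ 2
        + 1 / 2 * r ^ 3 * dist x₂ x₃ ^ 2
        + ‖w₁ • x₁ + w₂ • x₂ + w₃ • x₃‖ ^ 2 / (2 * θ) := by
  have hL := lagrange_identity x₁ x₂ x₃ w₁ w₂ w₃
  rw [h12, h13, h23] at hL
  have hθ' : θ ≠ 0 := hθ.ne'
  field_simp
  linarith

/-- The tight three-body inequality. -/
theorem tight_ineq (x₁ x₂ x₃ : E3) (p q r w₁ w₂ w₃ θ : ℝ) (hp : 0 < p) (hq : 0 < q) (hr : 0 < r)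
    (hθ : 0 < θ) (h12 : w₁ * w₂ = θ * p ^ 3) (h13 : w₁ * w₃ = θ * q ^ 3)
    (h23 : w₂ * w₃ = θ * r ^ 3) (n12 : x₁ ≠ x₂) (n13 : x₁ ≠ x₃) (n23 : x₂ ≠ x₃) :
    3 / 2 * (p + q + r)
        - (w₁ + w₂ + w₃) / (2 * θ) * (w₁ * ‖x₁‖ ^ 2 + w₂ * ‖x₂‖ ^ 2 + w₃ * ‖x₃‖ ^ 2)
      ≤ 1 / dist x₁ x₂ + 1 / dist x₁ x₃ + 1 / dist x₂ x₃ := by
  rw [tight_key x₁ x₂ x₃ p q r w₁ w₂ w₃ θ hθ h12 h13 h23]
  have t1 := tangent_ineq p (dist x₁ x₂) hp (dist_pos.mpr n12)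
  have t2 := tangent_ineq q (dist x₁ x₃) hq (dist_pos.mpr n13)
  have t3 := tangent_ineq r (dist x₂ x₃) hr (dist_pos.mpr n23)
  have t4 : 0 ≤ ‖w₁ • x₁ + w₂ • x₂ + w₃ • x₃‖ ^ 2 / (2 * θ) := by positivity
  linarith

/-- Equality case of the tight inequality. -/
theorem tight_eq (x₁ x₂ x₃ : E3) (p q r w₁ w₂ w₃ θ : ℝ) (hp : 0 < p) (hq : 0 < q) (hr : 0 < r)
    (hθ : 0 < θ) (h12 : w₁ * w₂ = θ * p ^ 3) (h13 : w₁ * w₃ = θ * q ^ 3)
    (h23 : w₂ * w₃ = θ * r ^ 3) (n12 : x₁ ≠ x₂) (n13 : x₁ ≠ x₃) (n23 : x₂ ≠ x₃)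
    (h : 1 / dist x₁ x₂ + 1 / dist x₁ x₃ + 1 / dist x₂ x₃ ≤ 3 / 2 * (p + q + r)
        - (w₁ + w₂ + w₃) / (2 * θ) * (w₁ * ‖x₁‖ ^ 2 + w₂ * ‖x₂‖ ^ 2 + w₃ * ‖x₃‖ ^ 2)) :
    dist x₁ x₂ = 1 / p ∧ dist x₁ x₃ = 1 / q ∧ dist x₂ x₃ = 1 / r ∧
      w₁ • x₁ + w₂ • x₂ + w₃ • x₃ = 0 := by
  rw [tight_key x₁ x₂ x₃ p q r w₁ w₂ w₃ θ hθ h12 h13 h23] at h
  have t1 := tangent_ineq p (dist x₁ x₂) hp (dist_pos.mpr n12)
  have t2 := tangent_ineq q (dist x₁ x₃) hq (dist_pos.mpr n13)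
  have t3 := tangent_ineq r (dist x₂ x₃) hr (dist_pos.mpr n23)
  have t4 : 0 ≤ ‖w₁ • x₁ + w₂ • x₂ + w₃ • x₃‖ ^ 2 / (2 * θ) := by positivity
  refine ⟨tangent_eq p _ hp (dist_pos.mpr n12) (by linarith),
    tangent_eq q _ hq (dist_pos.mpr n13) (by linarith),
    tangent_eq r _ hr (dist_pos.mpr n23) (by linarith), ?_⟩
  have t5 : ‖w₁ • x₁ + w₂ • x₂ + w₃ • x₃‖ ^ 2 / (2 * θ) = 0 := le_antisymm (by linarith) t4
  have t6 : ‖w₁ • x₁ + w₂ • x₂ + w₃ • x₃‖ ^ 2 = 0 := by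
    rcases div_eq_zero_iff.mp t5 with h6 | h6
    · exact h6
    · exact absurd h6 (by positivity)
  exact norm_eq_zero.mp (pow_eq_zero_iff (two_ne_zero) |>.mp t6)

/-- Barycentre formula: squared norm of a vertex from the side lengths. -/
theorem barycentre_norm_sq (x₁ x₂ x₃ : E3) (w₁ w₂ w₃ : ℝ)
    (h : w₁ • x₁ + w₂ • x₂ + w₃ • x₃ = 0) :
    (w₁ + w₂ + w₃) ^ 2 * ‖x₁‖ ^ 2
      = w₂ ^ 2 * dist x₁ x₂ ^ 2 + w₃ ^ 2 * dist x₁ x₃ ^ 2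
        + w₂ * w₃ * (dist x₁ x₂ ^ 2 + dist x₁ x₃ ^ 2 - dist x₂ x₃ ^ 2) := by
  have h1 : inner ℝ (w₁ • x₁ + w₂ • x₂ + w₃ • x₃) x₁ = 0 := by rw [h, inner_zero_left]
  have h0 : ‖w₁ • x₁ + w₂ • x₂ + w₃ • x₃‖ ^ 2 = 0 := by rw [h]; simp
  rw [norm_comb_sq] at h0
  rw [inner_add_left, inner_add_left, inner_smul_left, inner_smul_left, inner_smul_left,
    real_inner_self_eq_norm_sq, real_inner_comm x₁ x₂, real_inner_comm x₁ x₃] at h1
  simp only [conj_trivial] at h1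
  rw [dist_sq_expand, dist_sq_expand, dist_sq_expand]
  linear_combination 2 * (w₁ + w₂ + w₃) * h1 - h0

end Vale.Agent.P121
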