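import Vale.Agent.P121.Frame
import Vale.Agent.P121.Config
import Vale.Agent.P121.Tight

/-!
# P121: rigidity of contact configurations
-/

open MeasureTheory Set Filter Topology
open scoped ENNReal

namespace Vale.Agent.P121

theorem horiz_identity {s χ φ : ℝ} (x₂ x₃ : E3)
    (hb : aF s ^ 3 • frame (r1 s) 0 χ φ + s ^ 3 • x₂ + (8 / 27 * s ^ 3) • x₃ = 0) :
    aF s ^ 3 * (r1 s * Real.cos χ) + s ^ 3 * (x₂ 0 * Real.cos φ + x₂ 1 * Real.sin φ)
      + 8 / 27 * s ^ 3 * (x₃ 0 * Real.cos φ + x₃ 1 * Real.sin φ) = 0 := by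
  have h0 := congrArg (fun y : E3 => y 0) hb
  have h1 := congrArg (fun y : E3 => y 1) hb
  simp [frame] at h0 h1
  have hcs := Real.sin_sq_add_cos_sq φ
  linear_combination Real.cos φ * h0 + Real.sin φ * h1 - aF s ^ 3 * (r1 s * Real.cos χ) * hcs

theorem horiz_identity' {s χ φ : ℝ} (hs : Good s) (x₂ x₃ : E3)
    (hb : aF s ^ 3 • frame (r1 s) 0 χ φ + s ^ 3 • x₂ + (8 / 27 * s ^ 3) • x₃ = 0) :
    aF s ^ 3 / s ^ 3 * (r1 s * Real.cos χ)
      = -(x₂ 0 * Real.cos φ + x₂ 1 * Real.sin φ)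
        + 8 / 27 * -(x₃ 0 * Real.cos φ + x₃ 1 * Real.sin φ) := by
  have h := horiz_identity x₂ x₃ hb
  have hs0 : s ^ 3 ≠ 0 := (pow_pos hs.1 3).ne'
  rw [div_mul_eq_mul_div, div_eq_iff hs0]
  linear_combination h

/-- Second-level inequality on contact configurations (triangle inequality for the horizontal
projections). -/
theorem contact_rho_le {s χ φ : ℝ} (hs : Good s) (x₂ x₃ : E3)
    (hb : aF s ^ 3 • frame (r1 s) 0 χ φ + s ^ 3 • x₂ + (8 / 27 * s ^ 3) • x₃ = 0) :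
    aF s ^ 3 / s ^ 3 * (r1 s * Real.cos χ) ≤ rho x₂ + 8 / 27 * rho x₃ := by
  rw [horiz_identity' hs x₂ x₃ hb]
  have h2 := neg_horiz_le_rho x₂ φ
  have h3 := neg_horiz_le_rho x₃ φ
  linarith

/-- Rigidity: a contact configuration with equality in the second-level inequality is one of the
two mirror branches. -/
theorem contact_rigid {s χ φ : ℝ} (hs : Good s) (x₂ x₃ : E3)
    (h12 : dist (frame (r1 s) 0 χ φ) x₂ = 1 / (3 / 2 * aF s))
    (h13 : dist (frame (r1 s) 0 χ φ) x₃ = 1 / aF s)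
    (h23 : dist x₂ x₃ = 1 / s)
    (hb : aF s ^ 3 • frame (r1 s) 0 χ φ + s ^ 3 • x₂ + (8 / 27 * s ^ 3) • x₃ = 0)
    (hle : rho x₂ + 8 / 27 * rho x₃ ≤ aF s ^ 3 / s ^ 3 * (r1 s * Real.cos χ)) :
    (x₂ = frame (xi2 s) (eta2 s) χ φ ∧ x₃ = frame (xi3 s) (eta3 s) χ φ) ∨
      (x₂ = frame (xi2 s) (-eta2 s) χ φ ∧ x₃ = frame (xi3 s) (-eta3 s) χ φ) := by
  have ha : 0 < aF s := aF_pos hs
  have hs0 : 0 < s := hs.1
  have hs3 : s ^ 3 ≠ 0 := (pow_pos hs0 3).ne'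
  have hW := aF_cube_add hs
  rw [horiz_identity' hs x₂ x₃ hb] at hle
  have g3 := neg_horiz_le_rho x₃ φ
  have hmer : x₂ 1 * Real.cos φ = x₂ 0 * Real.sin φ :=
    meridian_of_rho_le x₂ φ (by linarith)
  obtain ⟨u, v, hx₂⟩ : ∃ u v : ℝ, x₂ = frame u v χ φ := ⟨_, _, eq_frame_of_meridian x₂ χ φ hmer⟩
  -- the norm of `x₂`
  have hb' : s ^ 3 • x₂ + aF s ^ 3 • frame (r1 s) 0 χ φ + (8 / 27 * s ^ 3) • x₃ = 0 := by
    rw [← hb]; abel
  have hN := barycentre_norm_sq x₂ (frame (r1 s) 0 χ φ) x₃ (s ^ 3) (aF s ^ 3) (8 / 27 * s ^ 3) hb'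
  rw [dist_comm x₂ (frame (r1 s) 0 χ φ), h12, h13, h23] at hN
  have hR2 : ‖x₂‖ ^ 2 = R2q (aF s) s := by
    unfold R2q
    rw [eq_div_iff (by rw [hW]; norm_num)]
    have e1 : (1 / (3 / 2 * aF s)) ^ 2 = 4 / (9 * aF s ^ 2) := by
      field_simp
      ring
    have e2 : (1 / aF s) ^ 2 = 1 / aF s ^ 2 := by
      field_simp
    have e3 : (1 / s) ^ 2 = 1 / s ^ 2 := by
      field_simp
    rw [e1, e2, e3] at hN
    linear_combination hN
  have huv : u ^ 2 + v ^ 2 = R2q (aF s) s := by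
    rw [← hR2, hx₂, norm_sq_frame]
  -- the inner product with `x₁`
  have hd := dist_sq_frame (r1 s) 0 u v χ φ
  rw [← hx₂, h12] at hd
  have e1 : (1 / (3 / 2 * aF s)) ^ 2 = 4 / (9 * aF s ^ 2) := by
    field_simp
    ring
  rw [e1] at hd
  have hr1 := r1_sq hs
  have hru : r1 s * u = c12q (aF s) s := by
    unfold c12q
    linear_combination (1 / 2) * hd + (1 / 2) * hr1 + (1 / 2) * huv
  have hu : u = xi2 s := by
    have h1 : r1 s * u = r1 s * xi2 s := by rw [hru, r1_mul_xi2 hs]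
    exact mul_left_cancel₀ (r1_pos hs).ne' h1
  have hv : v ^ 2 = eta2 s ^ 2 := by
    have h2 := xi2_sq_add_eta2_sq hs
    rw [hu] at huv
    linarith
  have hc : (8 / 27 * s ^ 3 : ℝ) ≠ 0 := by positivity
  have key : ∀ ε : ℝ, v = ε * eta2 s → x₃ = frame (xi3 s) (ε * eta3 s) χ φ := by
    intro ε hvε
    have hlin := frame_lin3 (aF s ^ 3) (s ^ 3) (8 / 27 * s ^ 3) (r1 s) 0 (xi2 s) (ε * eta2 s)
      (xi3 s) (ε * eta3 s) χ φ
    have z1 : aF s ^ 3 * r1 s + s ^ 3 * xi2 s + 8 / 27 * s ^ 3 * xi3 s = 0 := bary_xi hs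
    have z2 : aF s ^ 3 * 0 + s ^ 3 * (ε * eta2 s) + 8 / 27 * s ^ 3 * (ε * eta3 s) = 0 := by
      have := bary_eta hs
      linear_combination ε * this
    rw [z1, z2, frame_zero] at hlin
    rw [hx₂, hu, hvε] at hb
    have h5 : (8 / 27 * s ^ 3) • x₃ = (8 / 27 * s ^ 3) • frame (xi3 s) (ε * eta3 s) χ φ := by
      have h6 := hb.trans hlin.symm
      exact add_left_cancel h6
    exact smul_right_injective E3 hc h5
  rcases sq_eq_sq_iff_eq_or_eq_neg.mp hv with hv1 | hv1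
  · left
    refine ⟨by rw [hx₂, hu, hv1], ?_⟩
    have := key 1 (by rw [hv1, one_mul])
    rwa [one_mul] at this
  · right
    refine ⟨by rw [hx₂, hu, hv1], ?_⟩
    have := key (-1) (by rw [hv1]; ring)
    rwa [neg_one_mul] at this

theorem U1_tight {s : ℝ} (hs : Good s) (n₁ n₂ n₃ : ℝ) (hn₁ : n₁ = R1q (aF s) s) :
    3 / 2 * (3 / 2 * aF s + aF s + s)
        - (aF s ^ 3 + s ^ 3 + 8 / 27 * s ^ 3) / (2 * (8 / 27 * s ^ 3))
          * (aF s ^ 3 * n₁ + s ^ 3 * n₂ + 8 / 27 * s ^ 3 * n₃)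
      = U1 s - 31 / 8 * n₂ - (31 / 27 * n₃ + 1) := by
  have hW := aF_cube_add hs
  have hs3 : s ^ 3 ≠ 0 := (pow_pos hs.1 3).ne'
  have hs1 : s ≠ 0 := hs.1.ne'
  have hW' : aF s ^ 3 + s ^ 3 + 8 / 27 * s ^ 3 = 62 / 27 := by linarith
  rw [hW', hn₁]
  unfold U1
  field_simp
  ring

/-- Dual feasibility for (pivot, shell 2, shell 3). -/
theorem tight_config {s χ φ : ℝ} (hs : Good s) (x₂ x₃ : E3) :
    ENNReal.ofReal (U1 s) ≤ coulomb (frame (r1 s) 0 χ φ) x₂ x₃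
      + ENNReal.ofReal (31 / 8 * ‖x₂‖ ^ 2) + ENNReal.ofReal (31 / 27 * ‖x₃‖ ^ 2 + 1) := by
  have ha : 0 < aF s := aF_pos hs
  have hs0 : 0 < s := hs.1
  refine ofReal_le_coulomb_add _ _ _ _ _ _ (by positivity) (by positivity) ?_
  intro n12 n13 n23
  have h := tight_ineq (frame (r1 s) 0 χ φ) x₂ x₃ (3 / 2 * aF s) (aF s) s (aF s ^ 3) (s ^ 3)
    (8 / 27 * s ^ 3) (8 / 27 * s ^ 3) (by positivity) ha hs0 (by positivity) (by ring) (by ring)
    (by ring) n12 n13 n23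
  rw [U1_tight hs _ _ _ (by rw [norm_sq_frame, ← r1_sq hs]; ring)] at h
  linarith

/-- Contact for (pivot, shell 2, shell 3) forces the rigid triangle. -/
theorem tight_config_eq {s χ φ : ℝ} (hs : Good s) (x₂ x₃ : E3)
    (h : coulomb (frame (r1 s) 0 χ φ) x₂ x₃
      + ENNReal.ofReal (31 / 8 * ‖x₂‖ ^ 2) + ENNReal.ofReal (31 / 27 * ‖x₃‖ ^ 2 + 1)
        ≤ ENNReal.ofReal (U1 s)) :
    dist (frame (r1 s) 0 χ φ) x₂ = 1 / (3 / 2 * aF s) ∧
      dist (frame (r1 s) 0 χ φ) x₃ = 1 / aF s ∧ dist x₂ x₃ = 1 / s ∧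
      aF s ^ 3 • frame (r1 s) 0 χ φ + s ^ 3 • x₂ + (8 / 27 * s ^ 3) • x₃ = 0 := by
  have ha : 0 < aF s := aF_pos hs
  have hs0 : 0 < s := hs.1
  obtain ⟨n12, n13, n23, hle⟩ :=
    real_le_of_coulomb_add_le _ _ _ _ _ _ (by positivity) (by positivity) h
  refine tight_eq (frame (r1 s) 0 χ φ) x₂ x₃ (3 / 2 * aF s) (aF s) s (aF s ^ 3) (s ^ 3)
    (8 / 27 * s ^ 3) (8 / 27 * s ^ 3) (by positivity) ha hs0 (by positivity) (by ring) (by ring)
    (by ring) n12 n13 n23 ?_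
  rw [U1_tight hs _ _ _ (by rw [norm_sq_frame, ← r1_sq hs]; ring)]
  linarith

theorem dist_eq_of_sq {x y : E3} {d : ℝ} (hd : 0 < d) (h : dist x y ^ 2 = d ^ 2) :
    dist x y = d := by
  have h1 := abs_eq_abs.mpr (sq_eq_sq_iff_eq_or_eq_neg.mp h)
  rwa [abs_of_nonneg dist_nonneg, abs_of_pos hd] at h1

/-- Equality on the two branches (`ε = 1` or `ε = -1`). -/
theorem branch_eq {s χ φ ε : ℝ} (hs : Good s) (hε : ε = 1 ∨ ε = -1) :
    coulomb (frame (r1 s) 0 χ φ) (frame (xi2 s) (ε * eta2 s) χ φ) (frame (xi3 s) (ε * eta3 s) χ φ)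
      + ENNReal.ofReal (31 / 8 * ‖frame (xi2 s) (ε * eta2 s) χ φ‖ ^ 2)
      + ENNReal.ofReal (31 / 27 * ‖frame (xi3 s) (ε * eta3 s) χ φ‖ ^ 2 + 1)
      = ENNReal.ofReal (U1 s) := by
  have ha : 0 < aF s := aF_pos hs
  have hs0 : 0 < s := hs.1
  have hε2 : ε ^ 2 = 1 := by
    rcases hε with h | h <;> rw [h] <;> norm_num
  have D12 : dist (frame (r1 s) 0 χ φ) (frame (xi2 s) (ε * eta2 s) χ φ) = 2 / (3 * aF s) := by
    refine dist_eq_of_sq (by positivity) ?_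
    rw [dist_sq_frame, ← d12_sq hs]
    linear_combination (eta2 s) ^ 2 * hε2
  have D13 : dist (frame (r1 s) 0 χ φ) (frame (xi3 s) (ε * eta3 s) χ φ) = 1 / aF s := by
    refine dist_eq_of_sq (by positivity) ?_
    rw [dist_sq_frame, ← d13_sq hs]
    linear_combination (eta3 s) ^ 2 * hε2
  have D23 : dist (frame (xi2 s) (ε * eta2 s) χ φ) (frame (xi3 s) (ε * eta3 s) χ φ) = 1 / s := by
    refine dist_eq_of_sq (by positivity) ?_
    rw [dist_sq_frame, ← d23_sq hs]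
    linear_combination (eta2 s - eta3 s) ^ 2 * hε2
  have n12 : frame (r1 s) 0 χ φ ≠ frame (xi2 s) (ε * eta2 s) χ φ := by
    rw [← dist_pos, D12]; positivity
  have n13 : frame (r1 s) 0 χ φ ≠ frame (xi3 s) (ε * eta3 s) χ φ := by
    rw [← dist_pos, D13]; positivity
  have n23 : frame (xi2 s) (ε * eta2 s) χ φ ≠ frame (xi3 s) (ε * eta3 s) χ φ := by
    rw [← dist_pos, D23]; positivity
  have N2 : ‖frame (xi2 s) (ε * eta2 s) χ φ‖ ^ 2 = R2q (aF s) s := by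
    rw [norm_sq_frame, ← xi2_sq_add_eta2_sq hs]
    linear_combination (eta2 s) ^ 2 * hε2
  have N3 : ‖frame (xi3 s) (ε * eta3 s) χ φ‖ ^ 2 = R3q (aF s) s := by
    rw [norm_sq_frame, ← xi3_sq_add_eta3_sq hs]
    linear_combination (eta3 s) ^ 2 * hε2
  have P2 : 0 ≤ R2q (aF s) s := by rw [← N2]; positivity
  have P3 : 0 ≤ R3q (aF s) s := by rw [← N3]; positivity
  rw [coulomb_eq_ofReal n12 n13 n23, D12, D13, D23, N2, N3,
    ← ENNReal.ofReal_add (by positivity) (by positivity),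
    ← ENNReal.ofReal_add (by positivity) (by positivity), U1_eq hs]
  congr 1
  field_simp

/-- Equality in the second-level inequality on the two branches. -/
theorem branch_rho {s χ φ ε : ℝ} (hs : Good s)
    (h1 : 0 < Real.cos χ)
    (h2 : xi2 s * Real.cos χ - ε * eta2 s * Real.sin χ < 0)
    (h3 : xi3 s * Real.cos χ - ε * eta3 s * Real.sin χ < 0) :
    rho (frame (xi2 s) (ε * eta2 s) χ φ) + 8 / 27 * rho (frame (xi3 s) (ε * eta3 s) χ φ)
      = aF s ^ 3 / s ^ 3 * (r1 s * Real.cos χ) := by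
  have hs3 : s ^ 3 ≠ 0 := (pow_pos hs.1 3).ne'
  rw [rho_frame, rho_frame, abs_of_neg h2, abs_of_neg h3]
  have z1 := bary_xi hs
  have z2 := bary_eta hs
  rw [div_mul_eq_mul_div (aF s ^ 3), eq_div_iff hs3]
  linear_combination (-Real.cos χ) * z1 + (ε * Real.sin χ) * z2

end Vale.Agent.P121
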