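import Vale.Agent.P121.Verify

/-!
# P121: assembly of the counterexample
-/

open MeasureTheory Set Filter Topology
open scoped ENNReal

namespace Vale.Agent.P121

theorem e_pos : 0 < eta2 1 := eta2_pos good_one

theorem e_sq : eta2 1 ^ 2 = 512 / 9801 := eta2_one_sq

theorem PsiK_zero (ω : E3) : PsiK 0 ω = frame (r1 (ω 0)) 0 (ω 1) (ω 2) := rfl

theorem PsiK_one (ω : E3) : PsiK 1 ω = frame (xi2 (ω 0)) (eta2 (ω 0)) (ω 1) (ω 2) := rfl

theorem PsiK_two (ω : E3) : PsiK 2 ω = frame (xi3 (ω 0)) (eta3 (ω 0)) (ω 1) (ω 2) := rfl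

theorem PsiK_three (ω : E3) : PsiK 3 ω = frame (xi2 (ω 0)) (-eta2 (ω 0)) (ω 1) (ω 2) := rfl

theorem PsiK_four (ω : E3) : PsiK 4 ω = frame (xi3 (ω 0)) (-eta3 (ω 0)) (ω 1) (ω 2) := rfl

theorem Nice.near {ω : E3} (h : Nice ω) (k : Fin 5) :
    dist (PsiK k ω) (site (eta2 1) k) < 1 / 200 := h.2.2.2.2.2.2.2 k

theorem Nice.good {ω : E3} (h : Nice ω) : Good (ω 0) := h.1

theorem Nice.U1_lt {ω : E3} (h : Nice ω) : U1 (ω 0) < 29 / 5 := h.2.2.2.2.2.2.1

theorem near_of_nonPivot {B : Set E3} (hB : ∀ ω ∈ B, Nice ω) {y : E3}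
    (hy : y ∈ nonPivot PsiK B) : Near2 (eta2 1) y ∨ Near3 (eta2 1) y := by
  obtain ⟨k, hk, ω, hω, rfl⟩ := hy
  have h := (hB ω hω).near k
  fin_cases k
  · exact absurd rfl hk
  · exact Or.inl (Or.inl h)
  · exact Or.inr (Or.inl h)
  · exact Or.inl (Or.inr h)
  · exact Or.inr (Or.inr h)

theorem uNf_near2 {y : E3} (h : Near2 (eta2 1) y) :
    uNf y = ENNReal.ofReal (31 / 8 * ‖y‖ ^ 2) := by
  unfold uNf
  rw [if_pos (near2_norm _ e_pos e_sq y h)]

theorem uNf_near3 {y : E3} (h : Near3 (eta2 1) y) :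
    uNf y = ENNReal.ofReal (31 / 27 * ‖y‖ ^ 2 + 1) := by
  unfold uNf
  rw [if_neg (not_lt.mpr (near3_norm _ e_pos e_sq y h).1)]

theorem gQf_near2 {y : E3} (h : Near2 (eta2 1) y) : gQf y = ENNReal.ofReal (rho y) := by
  unfold gQf
  rw [if_pos (near2_norm _ e_pos e_sq y h)]

theorem gQf_near3 {y : E3} (h : Near3 (eta2 1) y) :
    gQf y = ENNReal.ofReal (8 / 27 * rho y) := by
  unfold gQf
  rw [if_neg (not_lt.mpr (near3_norm _ e_pos e_sq y h).1)]

theorem uPf_le {ω : E3} (h : Nice ω) : uPf ω ≤ ENNReal.ofReal (29 / 5) :=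
  ENNReal.ofReal_le_ofReal h.U1_lt.le

/-- Dual feasibility with one pivot. -/
theorem H1_main {ω y z : E3} (hω : Nice ω) (hy : Near2 (eta2 1) y ∨ Near3 (eta2 1) y)
    (hz : Near2 (eta2 1) z ∨ Near3 (eta2 1) z) :
    uPf ω ≤ coulomb (PsiK 0 ω) y z + uNf y + uNf z := by
  rcases hy with hy | hy <;> rcases hz with hz | hz
  · rw [uNf_near2 hy, uNf_near2 hz]
    exact (uPf_le hω).trans (strict22 _ e_pos e_sq _ y z (hω.near 0) hy hz).le
  · rw [uNf_near2 hy, uNf_near3 hz, PsiK_zero]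
    exact tight_config hω.good y z
  · rw [uNf_near3 hy, uNf_near2 hz, PsiK_zero, coulomb_comm23, add_right_comm]
    exact tight_config hω.good z y
  · rw [uNf_near3 hy, uNf_near3 hz]
    exact (uPf_le hω).trans (strict33 _ e_pos e_sq _ y z (hω.near 0) hy hz).le

/-- Contact forces the two partners to lie in different shells. -/
theorem contact_cases {ω y z : E3} (hω : Nice ω) (hy : Near2 (eta2 1) y ∨ Near3 (eta2 1) y)
    (hz : Near2 (eta2 1) z ∨ Near3 (eta2 1) z)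
    (hc : coulomb (PsiK 0 ω) y z + uNf y + uNf z ≤ uPf ω) :
    (Near2 (eta2 1) y ∧ Near3 (eta2 1) z) ∨ (Near3 (eta2 1) y ∧ Near2 (eta2 1) z) := by
  rcases hy with hy | hy <;> rcases hz with hz | hz
  · exfalso
    rw [uNf_near2 hy, uNf_near2 hz] at hc
    exact absurd (hc.trans (uPf_le hω))
      (not_le.mpr (strict22 _ e_pos e_sq _ y z (hω.near 0) hy hz))
  · exact Or.inl ⟨hy, hz⟩
  · exact Or.inr ⟨hy, hz⟩
  · exfalso
    rw [uNf_near3 hy, uNf_near3 hz] at hc
    exact absurd (hc.trans (uPf_le hω))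
      (not_le.mpr (strict33 _ e_pos e_sq _ y z (hω.near 0) hy hz))

theorem gP_arg_pos {ω : E3} (hω : Nice ω) :
    0 < aF (ω 0) ^ 3 / (ω 0) ^ 3 * (r1 (ω 0) * Real.cos (ω 1)) := by
  have h1 := aF_pos hω.good
  have h2 := hω.good.1
  have h3 := r1_pos hω.good
  have h4 := hω.2.1
  positivity

/-- Second-level inequality on contact triples. -/
theorem H3_main {ω y z : E3} (hω : Nice ω) (hy : Near2 (eta2 1) y ∨ Near3 (eta2 1) y)
    (hz : Near2 (eta2 1) z ∨ Near3 (eta2 1) z)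
    (hc : coulomb (PsiK 0 ω) y z + uNf y + uNf z ≤ uPf ω) : gPf ω ≤ gQf y + gQf z := by
  rcases contact_cases hω hy hz hc with ⟨h2, h3⟩ | ⟨h3, h2⟩
  · rw [uNf_near2 h2, uNf_near3 h3, PsiK_zero] at hc
    obtain ⟨-, -, -, hb⟩ := tight_config_eq hω.good y z hc
    rw [gQf_near2 h2, gQf_near3 h3,
      ← ENNReal.ofReal_add (rho_nonneg y) (mul_nonneg (by norm_num) (rho_nonneg z))]
    exact ENNReal.ofReal_le_ofReal (contact_rho_le hω.good y z hb)
  · rw [uNf_near3 h3, uNf_near2 h2, PsiK_zero, coulomb_comm23, add_right_comm] at hc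
    obtain ⟨-, -, -, hb⟩ := tight_config_eq hω.good z y hc
    rw [gQf_near3 h3, gQf_near2 h2, add_comm,
      ← ENNReal.ofReal_add (rho_nonneg z) (mul_nonneg (by norm_num) (rho_nonneg y))]
    exact ENNReal.ofReal_le_ofReal (contact_rho_le hω.good z y hb)

/-- Rigidity. -/
theorem H4_main {ω y z : E3} (hω : Nice ω) (hy : Near2 (eta2 1) y ∨ Near3 (eta2 1) y)
    (hz : Near2 (eta2 1) z ∨ Near3 (eta2 1) z)
    (hc : coulomb (PsiK 0 ω) y z + uNf y + uNf z ≤ uPf ω) (hg : gQf y + gQf z ≤ gPf ω) :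
    ∃ k : Fin 5, k ≠ 0 ∧ y = PsiK k ω := by
  rcases contact_cases hω hy hz hc with ⟨h2, h3⟩ | ⟨h3, h2⟩
  · rw [uNf_near2 h2, uNf_near3 h3, PsiK_zero] at hc
    obtain ⟨h12, h13, h23, hb⟩ := tight_config_eq hω.good y z hc
    rw [gQf_near2 h2, gQf_near3 h3,
      ← ENNReal.ofReal_add (rho_nonneg y) (mul_nonneg (by norm_num) (rho_nonneg z))] at hg
    have hle := (ENNReal.ofReal_le_ofReal_iff (gP_arg_pos hω).le).mp hg
    rcases contact_rigid hω.good y z h12 h13 h23 hb hle with ⟨hy', -⟩ | ⟨hy', -⟩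
    · exact ⟨1, by decide, by rw [PsiK_one]; exact hy'⟩
    · exact ⟨3, by decide, by rw [PsiK_three]; exact hy'⟩
  · rw [uNf_near3 h3, uNf_near2 h2, PsiK_zero, coulomb_comm23, add_right_comm] at hc
    obtain ⟨h12, h13, h23, hb⟩ := tight_config_eq hω.good z y hc
    rw [gQf_near3 h3, gQf_near2 h2, add_comm,
      ← ENNReal.ofReal_add (rho_nonneg z) (mul_nonneg (by norm_num) (rho_nonneg y))] at hg
    have hle := (ENNReal.ofReal_le_ofReal_iff (gP_arg_pos hω).le).mp hg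
    rcases contact_rigid hω.good z y h12 h13 h23 hb hle with ⟨-, hy'⟩ | ⟨-, hy'⟩
    · exact ⟨2, by decide, by rw [PsiK_two]; exact hy'⟩
    · exact ⟨4, by decide, by rw [PsiK_four]; exact hy'⟩

theorem near2_one {ω : E3} (hω : Nice ω) : Near2 (eta2 1) (PsiK 1 ω) := Or.inl (hω.near 1)

theorem near2_three {ω : E3} (hω : Nice ω) : Near2 (eta2 1) (PsiK 3 ω) := Or.inr (hω.near 3)

theorem near3_two {ω : E3} (hω : Nice ω) : Near3 (eta2 1) (PsiK 2 ω) := Or.inl (hω.near 2)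

theorem near3_four {ω : E3} (hω : Nice ω) : Near3 (eta2 1) (PsiK 4 ω) := Or.inr (hω.near 4)

theorem H2a_main {ω : E3} (hω : Nice ω) :
    coulomb (PsiK 0 ω) (PsiK 1 ω) (PsiK 2 ω) + uNf (PsiK 1 ω) + uNf (PsiK 2 ω) = uPf ω := by
  rw [uNf_near2 (near2_one hω), uNf_near3 (near3_two hω)]
  have h := branch_eq (s := ω 0) (χ := ω 1) (φ := ω 2) (ε := 1) hω.good (Or.inl rfl)
  simp only [one_mul] at h
  exact h

theorem H2b_main {ω : E3} (hω : Nice ω) :
    coulomb (PsiK 0 ω) (PsiK 3 ω) (PsiK 4 ω) + uNf (PsiK 3 ω) + uNf (PsiK 4 ω) = uPf ω := by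
  rw [uNf_near2 (near2_three hω), uNf_near3 (near3_four hω)]
  have h := branch_eq (s := ω 0) (χ := ω 1) (φ := ω 2) (ε := -1) hω.good (Or.inr rfl)
  simp only [neg_one_mul] at h
  exact h

theorem G2a_main {ω : E3} (hω : Nice ω) : gQf (PsiK 1 ω) + gQf (PsiK 2 ω) = gPf ω := by
  rw [gQf_near2 (near2_one hω), gQf_near3 (near3_two hω),
    ← ENNReal.ofReal_add (rho_nonneg _) (mul_nonneg (by norm_num) (rho_nonneg _))]
  have h := branch_rho (s := ω 0) (χ := ω 1) (φ := ω 2) (ε := 1) hω.good hω.2.1 hω.2.2.1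
    hω.2.2.2.2.1
  simp only [one_mul] at h
  unfold gPf
  rw [← h, PsiK_one, PsiK_two]

theorem G2b_main {ω : E3} (hω : Nice ω) : gQf (PsiK 3 ω) + gQf (PsiK 4 ω) = gPf ω := by
  rw [gQf_near2 (near2_three hω), gQf_near3 (near3_four hω),
    ← ENNReal.ofReal_add (rho_nonneg _) (mul_nonneg (by norm_num) (rho_nonneg _))]
  have h := branch_rho (s := ω 0) (χ := ω 1) (φ := ω 2) (ε := -1) hω.good hω.2.1 hω.2.2.2.1
    hω.2.2.2.2.2.1
  simp only [neg_one_mul] at h
  unfold gPf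
  rw [← h, PsiK_three, PsiK_four]

theorem uNf_le {y : E3} (hy : Near2 (eta2 1) y ∨ Near3 (eta2 1) y) :
    uNf y ≤ ENNReal.ofReal 6 := by
  rcases hy with hy | hy
  · rw [uNf_near2 hy]
    apply ENNReal.ofReal_le_ofReal
    have h := near2_norm _ e_pos e_sq y hy
    have h0 := norm_nonneg y
    nlinarith
  · rw [uNf_near3 hy]
    apply ENNReal.ofReal_le_ofReal
    have h := (near3_norm _ e_pos e_sq y hy).2
    have h0 := norm_nonneg y
    nlinarith

theorem gQf_le {y : E3} (hy : Near2 (eta2 1) y ∨ Near3 (eta2 1) y) :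
    gQf y ≤ ENNReal.ofReal 3 := by
  rcases hy with hy | hy
  · rw [gQf_near2 hy]
    apply ENNReal.ofReal_le_ofReal
    have h := near2_norm _ e_pos e_sq y hy
    have h0 := rho_le_norm y
    linarith
  · rw [gQf_near3 hy]
    apply ENNReal.ofReal_le_ofReal
    have h := (near3_norm _ e_pos e_sq y hy).2
    have h0 := rho_le_norm y
    linarith

theorem gPf_le {ω : E3} (hω : Nice ω) : gPf ω ≤ ENNReal.ofReal 6 := by
  rw [← G2a_main hω]
  calc gQf (PsiK 1 ω) + gQf (PsiK 2 ω) ≤ ENNReal.ofReal 3 + ENNReal.ofReal 3 :=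
        add_le_add (gQf_le (Or.inl (near2_one hω))) (gQf_le (Or.inr (near3_two hω)))
    _ = ENNReal.ofReal 6 := by
        rw [← ENNReal.ofReal_add (by norm_num) (by norm_num)]; norm_num

theorem H2p_main {ω ω' : E3} (hω : Nice ω) (hω' : Nice ω') (z : E3) :
    3 * ENNReal.ofReal 6 < coulomb (PsiK 0 ω) (PsiK 0 ω') z := by
  have hd : dist (PsiK 0 ω) (PsiK 0 ω') < 1 / 100 := by
    have h1 := hω.near 0
    have h2 := hω'.near 0
    have h3 := dist_triangle_right (PsiK 0 ω) (PsiK 0 ω') (site (eta2 1) 0)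
    linarith
  have h := lt_coulomb_of_dist_lt z (by norm_num : (0 : ℝ) < 1 / 100) hd
  refine lt_of_le_of_lt ?_ h
  have : (3 : ℝ≥0∞) = ENNReal.ofReal 3 := by simp
  rw [this, ← ENNReal.ofReal_mul (by norm_num)]
  apply ENNReal.ofReal_le_ofReal
  norm_num

theorem disjoint_main {B : Set E3} (hB : ∀ ω ∈ B, Nice ω) (j k : Fin 5) (hjk : j ≠ k) :
    Disjoint (PsiK j '' B) (PsiK k '' B) := by
  rw [Set.disjoint_left]
  rintro _ ⟨ω, hω, rfl⟩ ⟨ω', hω', h⟩
  have h1 := (hB ω hω).near j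
  have h2 := (hB ω' hω').near k
  rw [h] at h2
  have h3 := dist_triangle_left (site (eta2 1) j) (site (eta2 1) k) (PsiK j ω)
  have h4 := site_dist _ e_pos e_sq j k hjk
  linarith

/-- The counterexample. -/
theorem main_theorem :
    ∃ μ : Measure E3, IsProbabilityMeasure μ ∧ μ ≪ volume ∧ kantorovich μ < ⊤ ∧
      ¬ HasOptimalMongePlan μ := by
  choose U hU hUinj hUnull using PsiK_local
  have hV : {ω | Nice ω} ∩ ⋂ k, U k ∈ 𝓝 om0 :=
    Filter.inter_mem eventually_nice (Filter.iInter_mem.mpr hU)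
  obtain ⟨δ, hδ, hball⟩ := Metric.mem_nhds_iff.mp hV
  set B : Set E3 := Metric.ball om0 δ with hBdef
  have hBmeas : MeasurableSet B := measurableSet_ball
  have hBnice : ∀ ω ∈ B, Nice ω := fun ω hω => (hball hω).1
  have hBU : ∀ k, B ⊆ U k := fun k ω hω => Set.mem_iInter.mp (hball hω).2 k
  have hvol0 : volume B ≠ 0 := (Metric.measure_ball_pos volume om0 hδ).ne'
  have hvolT : volume B ≠ ⊤ := measure_ball_lt_top.ne
  set m : Measure E3 := (volume B)⁻¹ • volume.restrict B with hmdef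
  have hmprob : IsProbabilityMeasure m := by
    constructor
    rw [hmdef, Measure.smul_apply, Measure.restrict_apply MeasurableSet.univ, Set.univ_inter,
      smul_eq_mul, ENNReal.inv_mul_cancel hvol0 hvolT]
  have hmB : m Bᶜ = 0 := by
    rw [hmdef, Measure.smul_apply, Measure.restrict_apply hBmeas.compl, Set.compl_inter_self,
      measure_empty, smul_zero]
  have hac : ∀ k, m.map (PsiK k) ≪ volume := by
    intro k
    refine Measure.AbsolutelyContinuous.mk fun N hN hN0 => ?_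
    rw [Measure.map_apply (measurable_PsiK k) hN, hmdef, Measure.smul_apply,
      Measure.restrict_apply (measurable_PsiK k hN)]
    have ht : volume (PsiK k ⁻¹' N ∩ B) = 0 := by
      apply hUnull k _ (Set.inter_subset_right.trans (hBU k))
      refine measure_mono_null ?_ hN0
      rintro _ ⟨ω, hω, rfl⟩
      exact hω.1
    rw [ht, smul_zero]
  refine ⟨mixMeasure m PsiK, isProbabilityMeasure_mixMeasure m PsiK measurable_PsiK,
    mixMeasure_absolutelyContinuous m PsiK hac, ?_⟩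
  exact no_monge_abstract m B hBmeas hmB PsiK measurable_PsiK
    (fun k => (hUinj k).mono (hBU k)) (disjoint_main hBnice)
    uPf gPf uNf gQf measurable_uPf measurable_gPf measurable_uNf measurable_gQf
    (ENNReal.ofReal 6) ENNReal.ofReal_ne_top
    (fun ω hω => (uPf_le (hBnice ω hω)).trans (ENNReal.ofReal_le_ofReal (by norm_num)))
    (fun ω hω => gPf_le (hBnice ω hω))
    (fun y hy => uNf_le (near_of_nonPivot hBnice hy))
    (fun y hy => (gQf_le (near_of_nonPivot hBnice hy)).trans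
      (ENNReal.ofReal_le_ofReal (by norm_num)))
    (fun ω hω ω' hω' z => H2p_main (hBnice ω hω) (hBnice ω' hω') z)
    (fun ω hω y hy z hz => H1_main (hBnice ω hω) (near_of_nonPivot hBnice hy)
      (near_of_nonPivot hBnice hz))
    (fun ω hω => H2a_main (hBnice ω hω)) (fun ω hω => H2b_main (hBnice ω hω))
    (fun ω hω => G2a_main (hBnice ω hω)) (fun ω hω => G2b_main (hBnice ω hω))
    (fun ω hω y hy z hz hc => H3_main (hBnice ω hω) (near_of_nonPivot hBnice hy)
      (near_of_nonPivot hBnice hz) hc)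
    (fun ω hω y hy z hz hc hg => H4_main (hBnice ω hω) (near_of_nonPivot hBnice hy)
      (near_of_nonPivot hBnice hz) hc hg)

end Vale.Agent.P121
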