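import Vale.Agent.P121.Tight

/-!
# P121: numerical estimates near the five base sites
-/

open MeasureTheory Set Filter Topology
open scoped ENNReal

namespace Vale.Agent.P121

/-- The five base sites (`e = 16 √2 / 99`). -/
noncomputable def site (e : ℝ) : Fin 5 → E3 :=
  ![!₂[11 / 31, 0, 0], !₂[-833 / 3069, 0, e], !₂[-96 / 341, 0, -(27 / 8) * e],
    !₂[-833 / 3069, 0, -e], !₂[-96 / 341, 0, 27 / 8 * e]]

/-- Close to one of the two sites of the second shell. -/
def Near2 (e : ℝ) (y : E3) : Prop :=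
  dist y (site e 1) < 1 / 200 ∨ dist y (site e 3) < 1 / 200

/-- Close to one of the two sites of the third shell. -/
def Near3 (e : ℝ) (y : E3) : Prop :=
  dist y (site e 2) < 1 / 200 ∨ dist y (site e 4) < 1 / 200

theorem norm_vec3 (a b c : ℝ) : ‖(!₂[a, b, c] : E3)‖ = Real.sqrt (a ^ 2 + b ^ 2 + c ^ 2) := by
  rw [EuclideanSpace.norm_eq]
  simp [Fin.sum_univ_three]

theorem dist_vec3 (a b c a' b' c' : ℝ) :
    dist (!₂[a, b, c] : E3) !₂[a', b', c'] =
      Real.sqrt ((a - a') ^ 2 + (b - b') ^ 2 + (c - c') ^ 2) := by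
  rw [EuclideanSpace.dist_eq]
  simp [Fin.sum_univ_three, Real.dist_eq]

theorem site0 (e : ℝ) : site e 0 = !₂[11 / 31, 0, 0] := rfl
theorem site1 (e : ℝ) : site e 1 = !₂[-833 / 3069, 0, e] := rfl
theorem site2 (e : ℝ) : site e 2 = !₂[-96 / 341, 0, -(27 / 8) * e] := rfl
theorem site3 (e : ℝ) : site e 3 = !₂[-833 / 3069, 0, -e] := rfl
theorem site4 (e : ℝ) : site e 4 = !₂[-96 / 341, 0, 27 / 8 * e] := rfl

theorem e_lt (e : ℝ) (he : 0 < e) (he2 : e ^ 2 = 512 / 9801) : e < 2286 / 10000 := by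
  nlinarith

theorem sqrt_eq_of_sq {S r : ℝ} (hr : 0 ≤ r) (h : S = r ^ 2) : Real.sqrt S = r := by
  rw [h, Real.sqrt_sq hr]

theorem dist01 (e : ℝ) (he2 : e ^ 2 = 512 / 9801) : dist (site e 0) (site e 1) = 2 / 3 := by
  rw [site0, site1, dist_vec3]
  apply sqrt_eq_of_sq (by norm_num)
  linarith

theorem dist03 (e : ℝ) (he2 : e ^ 2 = 512 / 9801) : dist (site e 0) (site e 3) = 2 / 3 := by
  rw [site0, site3, dist_vec3]
  apply sqrt_eq_of_sq (by norm_num)
  linarith

theorem dist02 (e : ℝ) (he2 : e ^ 2 = 512 / 9801) : dist (site e 0) (site e 2) = 1 := by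
  rw [site0, site2, dist_vec3]
  apply sqrt_eq_of_sq (by norm_num)
  linarith

theorem dist04 (e : ℝ) (he2 : e ^ 2 = 512 / 9801) : dist (site e 0) (site e 4) = 1 := by
  rw [site0, site4, dist_vec3]
  apply sqrt_eq_of_sq (by norm_num)
  linarith

theorem dist13 (e : ℝ) (he : 0 < e) : dist (site e 1) (site e 3) = 2 * e := by
  rw [site1, site3, dist_vec3]
  apply sqrt_eq_of_sq (by positivity)
  ring

theorem dist24 (e : ℝ) (he : 0 < e) : dist (site e 2) (site e 4) = 27 / 4 * e := by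
  rw [site2, site4, dist_vec3]
  apply sqrt_eq_of_sq (by positivity)
  ring

theorem norm1 (e : ℝ) (he2 : e ^ 2 = 512 / 9801) : ‖site e 1‖ = 11 / 31 := by
  rw [site1, norm_vec3]
  apply sqrt_eq_of_sq (by norm_num)
  linarith

theorem norm3 (e : ℝ) (he2 : e ^ 2 = 512 / 9801) : ‖site e 3‖ = 11 / 31 := by
  rw [site3, norm_vec3]
  apply sqrt_eq_of_sq (by norm_num)
  linarith

theorem norm2_sq (e : ℝ) (he2 : e ^ 2 = 512 / 9801) : ‖site e 2‖ ^ 2 = 648 / 961 := by
  rw [site2, norm_vec3, Real.sq_sqrt (by positivity)]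
  linarith

theorem norm4_sq (e : ℝ) (he2 : e ^ 2 = 512 / 9801) : ‖site e 4‖ ^ 2 = 648 / 961 := by
  rw [site4, norm_vec3, Real.sq_sqrt (by positivity)]
  linarith

theorem bounds_of_sq {r : ℝ} (hr : 0 ≤ r) (h : r ^ 2 = 648 / 961) :
    8211 / 10000 < r ∧ r < 8212 / 10000 := by
  constructor <;> nlinarith

theorem site_dist (e : ℝ) (he : 0 < e) (he2 : e ^ 2 = 512 / 9801) (j k : Fin 5) (hjk : j ≠ k) :
    1 / 100 ≤ dist (site e j) (site e k) := by
  have key : ∀ a b c a' b' c' : ℝ, (1 / 100 : ℝ) ^ 2 ≤ (a - a') ^ 2 + (b - b') ^ 2 + (c - c') ^ 2 →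
      1 / 100 ≤ dist (!₂[a, b, c] : E3) !₂[a', b', c'] := by
    intro a b c a' b' c' h
    rw [dist_vec3]
    exact Real.le_sqrt_of_sq_le h
  fin_cases j <;> fin_cases k <;> first
    | exact absurd rfl hjk
    | (apply key; nlinarith [sq_nonneg e])

theorem norm_le_of_dist {y p : E3} {r : ℝ} (h : dist y p < r) : ‖y‖ < ‖p‖ + r := by
  have h1 : ‖y‖ ≤ ‖y - p‖ + ‖p‖ := by
    have := norm_add_le (y - p) p
    simpa using this
  rw [dist_eq_norm] at h
  linarith

theorem norm_ge_of_dist {y p : E3} {r : ℝ} (h : dist y p < r) : ‖p‖ - r < ‖y‖ := by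
  have h1 : ‖p‖ ≤ ‖p - y‖ + ‖y‖ := by
    have := norm_add_le (p - y) y
    simpa using this
  rw [dist_comm, dist_eq_norm] at h
  linarith

theorem near2_norm (e : ℝ) (he : 0 < e) (he2 : e ^ 2 = 512 / 9801) (y : E3) (hy : Near2 e y) :
    ‖y‖ < 1 / 2 := by
  rcases hy with h | h
  · have := norm_le_of_dist h
    rw [norm1 e he2] at this
    linarith
  · have := norm_le_of_dist h
    rw [norm3 e he2] at this
    linarith

theorem near2_norm_ge (e : ℝ) (he2 : e ^ 2 = 512 / 9801) (y : E3) (hy : Near2 e y) :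
    3498 / 10000 < ‖y‖ := by
  rcases hy with h | h
  · have := norm_ge_of_dist h
    rw [norm1 e he2] at this
    linarith
  · have := norm_ge_of_dist h
    rw [norm3 e he2] at this
    linarith

theorem near3_norm_bounds (e : ℝ) (he2 : e ^ 2 = 512 / 9801) (y : E3) (hy : Near3 e y) :
    8161 / 10000 < ‖y‖ ∧ ‖y‖ < 8262 / 10000 := by
  rcases hy with h | h
  · have h1 := norm_ge_of_dist h
    have h2 := norm_le_of_dist h
    have h3 := bounds_of_sq (norm_nonneg _) (norm2_sq e he2)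
    constructor <;> linarith [h3.1, h3.2]
  · have h1 := norm_ge_of_dist h
    have h2 := norm_le_of_dist h
    have h3 := bounds_of_sq (norm_nonneg _) (norm4_sq e he2)
    constructor <;> linarith [h3.1, h3.2]

theorem near3_norm (e : ℝ) (he : 0 < e) (he2 : e ^ 2 = 512 / 9801) (y : E3) (hy : Near3 e y) :
    1 / 2 ≤ ‖y‖ ∧ ‖y‖ ≤ 1 := by
  have h := near3_norm_bounds e he2 y hy
  constructor <;> linarith [h.1, h.2]

/-- Triangle inequality through two sites. -/
theorem dist_lt_of_near {x y p q : E3} {r s : ℝ} (hx : dist x p < r) (hy : dist y q < s) :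
    dist x y < r + dist p q + s := by
  have h1 : dist x y ≤ dist x p + dist p q + dist q y := dist_triangle4 x p q y
  rw [dist_comm q y] at h1
  linarith

/-- Lower bound of a reciprocal distance. -/
theorem le_one_div_dist {x y : E3} {b : ℝ} (hxy : x ≠ y) (h : dist x y < b) :
    1 / b ≤ 1 / dist x y :=
  one_div_le_one_div_of_le (dist_pos.mpr hxy) h.le

theorem dist_x_near2 (e : ℝ) (he2 : e ^ 2 = 512 / 9801) (x y : E3)
    (hx : dist x (site e 0) < 1 / 200) (hy : Near2 e y) : dist x y < 203 / 300 := by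
  rcases hy with h | h
  · have := dist_lt_of_near hx h
    rw [dist01 e he2] at this
    linarith
  · have := dist_lt_of_near hx h
    rw [dist03 e he2] at this
    linarith

theorem dist_x_near3 (e : ℝ) (he2 : e ^ 2 = 512 / 9801) (x y : E3)
    (hx : dist x (site e 0) < 1 / 200) (hy : Near3 e y) : dist x y < 101 / 100 := by
  rcases hy with h | h
  · have := dist_lt_of_near hx h
    rw [dist02 e he2] at this
    linarith
  · have := dist_lt_of_near hx h
    rw [dist04 e he2] at this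
    linarith

theorem dist_near2_near2 (e : ℝ) (he : 0 < e) (he2 : e ^ 2 = 512 / 9801) (y z : E3)
    (hy : Near2 e y) (hz : Near2 e z) : dist y z < 4672 / 10000 := by
  have hlt := e_lt e he he2
  rcases hy with h | h <;> rcases hz with h' | h'
  · have := dist_lt_of_near h h'
    rw [dist_self] at this
    linarith
  · have := dist_lt_of_near h h'
    rw [dist13 e he] at this
    linarith
  · have := dist_lt_of_near h h'
    rw [dist_comm (site e 3), dist13 e he] at this
    linarith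
  · have := dist_lt_of_near h h'
    rw [dist_self] at this
    linarith

theorem dist_near3_near3 (e : ℝ) (he : 0 < e) (he2 : e ^ 2 = 512 / 9801) (y z : E3)
    (hy : Near3 e y) (hz : Near3 e z) : dist y z < 15531 / 10000 := by
  have hlt := e_lt e he he2
  rcases hy with h | h <;> rcases hz with h' | h'
  · have := dist_lt_of_near h h'
    rw [dist_self] at this
    linarith
  · have := dist_lt_of_near h h'
    rw [dist24 e he] at this
    linarith
  · have := dist_lt_of_near h h'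
    rw [dist_comm (site e 4), dist24 e he] at this
    linarith
  · have := dist_lt_of_near h h'
    rw [dist_self] at this
    linarith

theorem strict22 (e : ℝ) (he : 0 < e) (he2 : e ^ 2 = 512 / 9801) (x y z : E3)
    (hx : dist x (site e 0) < 1 / 200) (hy : Near2 e y) (hz : Near2 e z) :
    ENNReal.ofReal (29 / 5) < coulomb x y z + ENNReal.ofReal (31 / 8 * ‖y‖ ^ 2)
      + ENNReal.ofReal (31 / 8 * ‖z‖ ^ 2) := by
  have h6 : ENNReal.ofReal (29 / 5) < ENNReal.ofReal 6 :=
    (ENNReal.ofReal_lt_ofReal_iff (by norm_num)).mpr (by norm_num)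
  refine lt_of_lt_of_le h6 ?_
  apply ofReal_le_coulomb_add x y z 6 _ _ (by positivity) (by positivity)
  intro hxy hxz hyz
  have h1 := le_one_div_dist hxy (dist_x_near2 e he2 x y hx hy)
  have h2 := le_one_div_dist hxz (dist_x_near2 e he2 x z hx hz)
  have h3 := le_one_div_dist hyz (dist_near2_near2 e he he2 y z hy hz)
  have h4 := near2_norm_ge e he2 y hy
  have h5 := near2_norm_ge e he2 z hz
  have h4' : (3498 / 10000 : ℝ) ^ 2 ≤ ‖y‖ ^ 2 := by nlinarith
  have h5' : (3498 / 10000 : ℝ) ^ 2 ≤ ‖z‖ ^ 2 := by nlinarith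
  norm_num at h1 h2 h3 h4' h5' ⊢
  linarith

theorem strict33 (e : ℝ) (he : 0 < e) (he2 : e ^ 2 = 512 / 9801) (x y z : E3)
    (hx : dist x (site e 0) < 1 / 200) (hy : Near3 e y) (hz : Near3 e z) :
    ENNReal.ofReal (29 / 5) < coulomb x y z + ENNReal.ofReal (31 / 27 * ‖y‖ ^ 2 + 1)
      + ENNReal.ofReal (31 / 27 * ‖z‖ ^ 2 + 1) := by
  have h6 : ENNReal.ofReal (29 / 5) < ENNReal.ofReal 6 :=
    (ENNReal.ofReal_lt_ofReal_iff (by norm_num)).mpr (by norm_num)
  refine lt_of_lt_of_le h6 ?_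
  apply ofReal_le_coulomb_add x y z 6 _ _ (by positivity) (by positivity)
  intro hxy hxz hyz
  have h1 := le_one_div_dist hxy (dist_x_near3 e he2 x y hx hy)
  have h2 := le_one_div_dist hxz (dist_x_near3 e he2 x z hx hz)
  have h3 := le_one_div_dist hyz (dist_near3_near3 e he he2 y z hy hz)
  have h4 := (near3_norm_bounds e he2 y hy).1
  have h5 := (near3_norm_bounds e he2 z hz).1
  have h4' : (8161 / 10000 : ℝ) ^ 2 ≤ ‖y‖ ^ 2 := by nlinarith
  have h5' : (8161 / 10000 : ℝ) ^ 2 ≤ ‖z‖ ^ 2 := by nlinarith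
  norm_num at h1 h2 h3 h4' h5' ⊢
  linarith

end Vale.Agent.P121
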