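import Vale.Agent.P121.Defs

/-!
# P121: the parametrisation `Psi` and its local properties
-/

open MeasureTheory Set Filter Topology
open scoped ENNReal

namespace Vale.Agent.P121

/-- The point with coordinates u, v in the meridian plane of longitude `φ`, rotated in that
plane by the angle `χ`. -/
noncomputable def frame (u v χ φ : ℝ) : E3 :=
  !₂[(u * Real.cos χ - v * Real.sin χ) * Real.cos φ,
     (u * Real.cos χ - v * Real.sin χ) * Real.sin φ,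
     u * Real.sin χ + v * Real.cos χ]

/-- The parametrisation sending s, χ, φ to `frame (ξ s) (η s) χ φ`. -/
noncomputable def Psi (ξ η : ℝ → ℝ) (ω : E3) : E3 :=
  frame (ξ (ω 0)) (η (ω 0)) (ω 1) (ω 2)

theorem Psi_contDiffAt (ξ η : ℝ → ℝ) (s₀ : ℝ) (hξ : ContDiffAt ℝ 1 ξ s₀)
    (hη : ContDiffAt ℝ 1 η s₀) : ContDiffAt ℝ 1 (Psi ξ η) (!₂[s₀, 0, 0] : E3) := by
  have hp : ∀ i : Fin 3, ContDiffAt ℝ 1 (fun w : E3 => w i) (!₂[s₀, 0, 0] : E3) := fun i =>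
    (EuclideanSpace.proj (𝕜 := ℝ) (ι := Fin 3) i).contDiff.contDiffAt
  have h1 : ContDiffAt ℝ 1 (fun w : E3 => ξ (w 0)) (!₂[s₀, 0, 0] : E3) :=
    ContDiffAt.comp (g := ξ) (f := fun w : E3 => w 0) _ (by simpa using hξ) (hp 0)
  have h2 : ContDiffAt ℝ 1 (fun w : E3 => η (w 0)) (!₂[s₀, 0, 0] : E3) :=
    ContDiffAt.comp (g := η) (f := fun w : E3 => w 0) _ (by simpa using hη) (hp 0)
  have c1 : ContDiffAt ℝ 1 (fun w : E3 => Real.cos (w 1)) (!₂[s₀, 0, 0] : E3) := (hp 1).cos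
  have s1 : ContDiffAt ℝ 1 (fun w : E3 => Real.sin (w 1)) (!₂[s₀, 0, 0] : E3) := (hp 1).sin
  have c2 : ContDiffAt ℝ 1 (fun w : E3 => Real.cos (w 2)) (!₂[s₀, 0, 0] : E3) := (hp 2).cos
  have s2 : ContDiffAt ℝ 1 (fun w : E3 => Real.sin (w 2)) (!₂[s₀, 0, 0] : E3) := (hp 2).sin
  rw [contDiffAt_euclidean]
  intro i
  fin_cases i
  · simpa [Psi, frame] using ((h1.mul c1).sub (h2.mul s1)).mul c2
  · simpa [Psi, frame] using ((h1.mul c1).sub (h2.mul s1)).mul s2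
  · simpa [Psi, frame] using (h1.mul s1).add (h2.mul c1)

/-- The derivative of `Psi` at the base point, evaluated on a vector, in coordinates. -/
theorem Psi_fderiv_apply (ξ η : ℝ → ℝ) (s₀ : ℝ) (hξ : ContDiffAt ℝ 1 ξ s₀)
    (hη : ContDiffAt ℝ 1 η s₀) (v : E3) :
    (fderiv ℝ (Psi ξ η) (!₂[s₀, 0, 0] : E3) v) 0 = deriv ξ s₀ * v 0 - η s₀ * v 1 ∧
    (fderiv ℝ (Psi ξ η) (!₂[s₀, 0, 0] : E3) v) 1 = ξ s₀ * v 2 ∧
    (fderiv ℝ (Psi ξ η) (!₂[s₀, 0, 0] : E3) v) 2 = ξ s₀ * v 1 + deriv η s₀ * v 0 := by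
  set w₀ : E3 := !₂[s₀, 0, 0] with hw₀
  set A := fderiv ℝ (Psi ξ η) w₀ with hAdef
  have hA : HasFDerivAt (Psi ξ η) A w₀ :=
    ((Psi_contDiffAt ξ η s₀ hξ hη).differentiableAt (by norm_num)).hasFDerivAt
  have hγ : HasDerivAt (fun t : ℝ => w₀ + t • v) v 0 := by
    simpa using ((hasDerivAt_id (0 : ℝ)).smul_const v).const_add w₀
  have hA' : HasFDerivAt (Psi ξ η) A (w₀ + (0 : ℝ) • v) := by simpa using hA
  have hc : HasDerivAt (fun t : ℝ => Psi ξ η (w₀ + t • v)) (A v) 0 :=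
    HasFDerivAt.comp_hasDerivAt (l := Psi ξ η) (f := fun t : ℝ => w₀ + t • v) (0 : ℝ) hA' hγ
  have hci : ∀ i : Fin 3, HasDerivAt (fun t : ℝ => Psi ξ η (w₀ + t • v) i) (A v i) 0 := fun i =>
    (EuclideanSpace.proj (𝕜 := ℝ) (ι := Fin 3) i).hasFDerivAt.comp_hasDerivAt (0 : ℝ) hc
  -- the scalar ingredients
  have hs : HasDerivAt (fun t : ℝ => s₀ + t * v 0) (v 0) 0 := by
    simpa using ((hasDerivAt_id (0 : ℝ)).mul_const (v 0)).const_add s₀
  have hξ1 : HasDerivAt ξ (deriv ξ s₀) (s₀ + (0 : ℝ) * v 0) := by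
    simpa using (hξ.differentiableAt (by norm_num)).hasDerivAt
  have hη1 : HasDerivAt η (deriv η s₀) (s₀ + (0 : ℝ) * v 0) := by
    simpa using (hη.differentiableAt (by norm_num)).hasDerivAt
  have hξc : HasDerivAt (fun t : ℝ => ξ (s₀ + t * v 0)) (deriv ξ s₀ * v 0) 0 :=
    hξ1.comp (0 : ℝ) hs
  have hηc : HasDerivAt (fun t : ℝ => η (s₀ + t * v 0)) (deriv η s₀ * v 0) 0 :=
    hη1.comp (0 : ℝ) hs
  have hl : ∀ b : ℝ, HasDerivAt (fun t : ℝ => t * b) b 0 := fun b => by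
    simpa using (hasDerivAt_id (0 : ℝ)).mul_const b
  have hc1 := (hl (v 1)).cos
  have hs1 := (hl (v 1)).sin
  have hc2 := (hl (v 2)).cos
  have hs2 := (hl (v 2)).sin
  have e0 : (fun t : ℝ => Psi ξ η (w₀ + t • v) 0) = fun t : ℝ =>
      (ξ (s₀ + t * v 0) * Real.cos (t * v 1) - η (s₀ + t * v 0) * Real.sin (t * v 1))
        * Real.cos (t * v 2) := by
    funext t; simp [Psi, frame, hw₀]
  have e1 : (fun t : ℝ => Psi ξ η (w₀ + t • v) 1) = fun t : ℝ =>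
      (ξ (s₀ + t * v 0) * Real.cos (t * v 1) - η (s₀ + t * v 0) * Real.sin (t * v 1))
        * Real.sin (t * v 2) := by
    funext t; simp [Psi, frame, hw₀]
  have e2 : (fun t : ℝ => Psi ξ η (w₀ + t • v) 2) = fun t : ℝ =>
      ξ (s₀ + t * v 0) * Real.sin (t * v 1) + η (s₀ + t * v 0) * Real.cos (t * v 1) := by
    funext t; simp [Psi, frame, hw₀]
  refine ⟨?_, ?_, ?_⟩
  · have h := hci 0
    rw [e0] at h
    have h' := ((hξc.mul hc1).sub (hηc.mul hs1)).mul hc2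
    have := h.unique h'
    rw [this]; simp
  · have h := hci 1
    rw [e1] at h
    have h' := ((hξc.mul hc1).sub (hηc.mul hs1)).mul hs2
    have := h.unique h'
    rw [this]; simp
  · have h := hci 2
    rw [e2] at h
    have h' := (hξc.mul hs1).add (hηc.mul hc1)
    have := h.unique h'
    rw [this]; simp

/-- The derivative of `Psi` at the base point is injective. -/
theorem Psi_fderiv_injective (ξ η : ℝ → ℝ) (s₀ : ℝ) (hξ : ContDiffAt ℝ 1 ξ s₀)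
    (hη : ContDiffAt ℝ 1 η s₀) (h0 : ξ s₀ ≠ 0)
    (hd : deriv (fun s => ξ s ^ 2 + η s ^ 2) s₀ ≠ 0) (v : E3)
    (hv : fderiv ℝ (Psi ξ η) (!₂[s₀, 0, 0] : E3) v = 0) : v = 0 := by
  obtain ⟨e0, e1, e2⟩ := Psi_fderiv_apply ξ η s₀ hξ hη v
  rw [hv] at e0 e1 e2
  have hξ1 : HasDerivAt ξ (deriv ξ s₀) s₀ := (hξ.differentiableAt (by norm_num)).hasDerivAt
  have hη1 : HasDerivAt η (deriv η s₀) s₀ := (hη.differentiableAt (by norm_num)).hasDerivAt
  have hder : deriv (fun s => ξ s ^ 2 + η s ^ 2) s₀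
      = 2 * (ξ s₀ * deriv ξ s₀ + η s₀ * deriv η s₀) := by
    have h2 : HasDerivAt (fun s => ξ s ^ 2 + η s ^ 2)
        (((2 : ℕ) : ℝ) * ξ s₀ ^ (2 - 1) * deriv ξ s₀
          + ((2 : ℕ) : ℝ) * η s₀ ^ (2 - 1) * deriv η s₀) s₀ :=
      (hξ1.pow 2).add (hη1.pow 2)
    rw [h2.deriv]
    norm_num
    ring
  rw [hder] at hd
  have hd' : ξ s₀ * deriv ξ s₀ + η s₀ * deriv η s₀ ≠ 0 := fun h => hd (by rw [h]; simp)
  simp only [PiLp.zero_apply] at e0 e1 e2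
  have hc : v 2 = 0 := by
    rcases mul_eq_zero.1 e1.symm with h | h
    · exact absurd h h0
    · exact h
  have ha : v 0 = 0 := by
    have : (ξ s₀ * deriv ξ s₀ + η s₀ * deriv η s₀) * v 0 = 0 := by
      linear_combination (-(ξ s₀)) * e0 - (η s₀) * e2
    rcases mul_eq_zero.1 this with h | h
    · exact absurd h hd'
    · exact h
  have hb : v 1 = 0 := by
    rw [ha] at e2
    have : ξ s₀ * v 1 = 0 := by linarith
    rcases mul_eq_zero.1 this with h | h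
    · exact absurd h h0
    · exact h
  ext i
  fin_cases i
  · simpa using ha
  · simpa using hb
  · simpa using hc

/-- Local injectivity and nondegeneracy of `Psi` at the base point with coordinates s₀, 0, 0. -/
theorem Psi_local (ξ η : ℝ → ℝ) (s₀ : ℝ) (hξ : ContDiffAt ℝ 1 ξ s₀) (hη : ContDiffAt ℝ 1 η s₀)
    (h0 : ξ s₀ ≠ 0) (hd : deriv (fun s => ξ s ^ 2 + η s ^ 2) s₀ ≠ 0) :
    ∃ U ∈ 𝓝 (!₂[s₀, 0, 0] : E3), Set.InjOn (Psi ξ η) U ∧
      ∀ t ⊆ U, volume (Psi ξ η '' t) = 0 → volume t = 0 := by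
  set w₀ : E3 := !₂[s₀, 0, 0] with hw₀
  set A := fderiv ℝ (Psi ξ η) w₀ with hAdef
  have hA : HasStrictFDerivAt (Psi ξ η) A w₀ :=
    (Psi_contDiffAt ξ η s₀ hξ hη).hasStrictFDerivAt (by norm_num)
  have hdet : A.det ≠ 0 := by
    intro h
    have hk := LinearMap.bot_lt_ker_of_det_eq_zero (f := (A : E3 →ₗ[ℝ] E3)) h
    obtain ⟨v, hvk, hv0⟩ := SetLike.exists_of_lt hk
    apply hv0
    have : v = 0 := Psi_fderiv_injective ξ η s₀ hξ hη h0 hd v (by simpa using hvk)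
    simp [this]
  set B := A.toContinuousLinearEquivOfDetNeZero hdet with hB
  have hBA : (B : E3 →L[ℝ] E3) = A := A.coe_toContinuousLinearEquivOfDetNeZero hdet
  -- a positive constant below the Jacobian
  have hpos : (0 : ℝ≥0∞) < ENNReal.ofReal |A.det| := by simpa using hdet
  obtain ⟨m, hm0, hm⟩ : ∃ m : NNReal, 0 < m ∧ (m : ℝ≥0∞) < ENNReal.ofReal |A.det| := by
    obtain ⟨m, hm0, hm⟩ := ENNReal.lt_iff_exists_nnreal_btwn.1 hpos
    exact ⟨m, by exact_mod_cast hm0, hm⟩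
  have ev1 := mul_le_addHaar_image_of_lt_det (μ := (volume : Measure E3)) A hm
  have hN : (0 : NNReal) < ‖(B.symm : E3 →L[ℝ] E3)‖₊⁻¹ := by
    rcases B.subsingleton_or_nnnorm_symm_pos with h | h
    · exfalso
      have h1 : (EuclideanSpace.single (0 : Fin 3) (1 : ℝ) : E3) = 0 := Subsingleton.elim _ _
      have := congrArg (fun x : E3 => x 0) h1
      simp at this
    · exact inv_pos.2 h
  have ev2 : ∀ᶠ δ in 𝓝[>] (0 : NNReal), δ < ‖(B.symm : E3 →L[ℝ] E3)‖₊⁻¹ :=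
    nhdsWithin_le_nhds (Iio_mem_nhds hN)
  have ev3 : ∀ᶠ δ in 𝓝[>] (0 : NNReal), 0 < δ := self_mem_nhdsWithin
  obtain ⟨δ, h1, h2, h3⟩ := (ev1.and (ev2.and ev3)).exists
  obtain ⟨U, hU, hUA⟩ := hA.approximates_deriv_on_nhds (c := δ) (Or.inr h3)
  refine ⟨U, hU, ?_, ?_⟩
  · have hUB : ApproximatesLinearOn (Psi ξ η) (B : E3 →L[ℝ] E3) U δ := by rw [hBA]; exact hUA
    exact hUB.injOn (Or.inr h2)
  · intro t ht hvol
    have := h1 t (Psi ξ η) (hUA.mono_set ht)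
    rw [hvol] at this
    have h4 : (m : ℝ≥0∞) * volume t = 0 := le_antisymm this zero_le
    rcases mul_eq_zero.1 h4 with h | h
    · exact absurd (by exact_mod_cast h) hm0.ne'
    · exact h

end Vale.Agent.P121
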