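import Vale.Agent.P121.Geometry
import Vale.Agent.P121.ConfigCalc
import Vale.Agent.P121.Numeric
import Vale.Agent.P121.Abstract

/-!
# P121: verification of the hypotheses of the abstract theorem for the explicit data
-/

open MeasureTheory Set Filter Topology
open scoped ENNReal

namespace Vale.Agent.P121

/-- The five parametrisations. -/
noncomputable def PsiK : Fin 5 → E3 → E3 :=
  ![Psi r1 (fun _ => 0), Psi xi2 eta2, Psi xi3 eta3,
    Psi xi2 (fun s => -eta2 s), Psi xi3 (fun s => -eta3 s)]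

/-- The base parameter. -/
noncomputable def om0 : E3 := !₂[1, 0, 0]

noncomputable def uPf (ω : E3) : ℝ≥0∞ := ENNReal.ofReal (U1 (ω 0))

noncomputable def gPf (ω : E3) : ℝ≥0∞ :=
  ENNReal.ofReal (aF (ω 0) ^ 3 / (ω 0) ^ 3 * (r1 (ω 0) * Real.cos (ω 1)))

noncomputable def uNf (y : E3) : ℝ≥0∞ :=
  if ‖y‖ < 1 / 2 then ENNReal.ofReal (31 / 8 * ‖y‖ ^ 2) else ENNReal.ofReal (31 / 27 * ‖y‖ ^ 2 + 1)

noncomputable def gQf (y : E3) : ℝ≥0∞ :=
  if ‖y‖ < 1 / 2 then ENNReal.ofReal (rho y) else ENNReal.ofReal (8 / 27 * rho y)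

/-- The conditions on a parameter that make all the estimates work. -/
def Nice (ω : E3) : Prop :=
  Good (ω 0) ∧ 0 < Real.cos (ω 1) ∧
  (xi2 (ω 0) * Real.cos (ω 1) - 1 * eta2 (ω 0) * Real.sin (ω 1) < 0) ∧
  (xi2 (ω 0) * Real.cos (ω 1) - (-1) * eta2 (ω 0) * Real.sin (ω 1) < 0) ∧
  (xi3 (ω 0) * Real.cos (ω 1) - 1 * eta3 (ω 0) * Real.sin (ω 1) < 0) ∧
  (xi3 (ω 0) * Real.cos (ω 1) - (-1) * eta3 (ω 0) * Real.sin (ω 1) < 0) ∧
  U1 (ω 0) < 29 / 5 ∧
  (∀ k, dist (PsiK k ω) (site (eta2 1) k) < 1 / 200)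

theorem measurable_coord (i : Fin 3) : Measurable (fun ω : E3 => ω i) := by
  fun_prop

theorem continuous_coord (i : Fin 3) : Continuous (fun ω : E3 => ω i) := by
  fun_prop

theorem om0_zero : om0 0 = 1 := by simp [om0]
theorem om0_one : om0 1 = 0 := by simp [om0]
theorem om0_two : om0 2 = 0 := by simp [om0]

theorem tendsto_coord0 : Tendsto (fun ω : E3 => ω 0) (𝓝 om0) (𝓝 1) := by
  have h := (continuous_coord 0).tendsto om0
  rwa [om0_zero] at h

theorem tendsto_coord1 : Tendsto (fun ω : E3 => ω 1) (𝓝 om0) (𝓝 0) := by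
  have h := (continuous_coord 1).tendsto om0
  rwa [om0_one] at h

theorem Psi_om0 (ξ η : ℝ → ℝ) : Psi ξ η om0 = !₂[ξ 1, 0, η 1] := by
  unfold Psi frame
  rw [om0_zero, om0_one, om0_two]
  simp

theorem PsiK_om0 (k : Fin 5) : PsiK k om0 = site (eta2 1) k := by
  fin_cases k
  · show Psi r1 (fun _ => 0) om0 = !₂[11 / 31, 0, 0]
    rw [Psi_om0, r1_one]
  · show Psi xi2 eta2 om0 = !₂[-833 / 3069, 0, eta2 1]
    rw [Psi_om0, xi2_one]
  · show Psi xi3 eta3 om0 = !₂[-96 / 341, 0, -(27 / 8) * eta2 1]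
    rw [Psi_om0, xi3_one]
    rfl
  · show Psi xi2 (fun s => -eta2 s) om0 = !₂[-833 / 3069, 0, -eta2 1]
    rw [Psi_om0, xi2_one]
  · show Psi xi3 (fun s => -eta3 s) om0 = !₂[-96 / 341, 0, 27 / 8 * eta2 1]
    rw [Psi_om0, xi3_one]
    have h : -eta3 1 = 27 / 8 * eta2 1 := by unfold eta3; ring
    rw [h]

theorem continuousAt_PsiK (k : Fin 5) : ContinuousAt (PsiK k) om0 := by
  have h1 : ContinuousAt r1 (om0 0) := by rw [om0_zero]; exact contDiffAt_r1.continuousAt
  have h2 : ContinuousAt xi2 (om0 0) := by rw [om0_zero]; exact contDiffAt_xi2.continuousAt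
  have h3 : ContinuousAt eta2 (om0 0) := by rw [om0_zero]; exact contDiffAt_eta2.continuousAt
  have h4 : ContinuousAt xi3 (om0 0) := by rw [om0_zero]; exact contDiffAt_xi3.continuousAt
  have h5 : ContinuousAt eta3 (om0 0) := by rw [om0_zero]; exact contDiffAt_eta3.continuousAt
  fin_cases k
  · exact continuousAt_Psi _ _ _ h1 continuousAt_const
  · exact continuousAt_Psi _ _ _ h2 h3
  · exact continuousAt_Psi _ _ _ h4 h5
  · exact continuousAt_Psi _ _ _ h2 h3.neg
  · exact continuousAt_Psi _ _ _ h4 h5.neg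

theorem eventually_hcond (ξ η : ℝ → ℝ) (c : ℝ) (hξ : ContinuousAt ξ 1) (hη : ContinuousAt η 1)
    (h : ξ 1 < 0) :
    ∀ᶠ ω in 𝓝 om0, ξ (ω 0) * Real.cos (ω 1) - c * η (ω 0) * Real.sin (ω 1) < 0 := by
  have t1 : Tendsto (fun ω : E3 => ξ (ω 0)) (𝓝 om0) (𝓝 (ξ 1)) := hξ.tendsto.comp tendsto_coord0
  have t2 : Tendsto (fun ω : E3 => η (ω 0)) (𝓝 om0) (𝓝 (η 1)) := hη.tendsto.comp tendsto_coord0
  have t3 : Tendsto (fun ω : E3 => Real.cos (ω 1)) (𝓝 om0) (𝓝 (Real.cos 0)) :=
    (Real.continuous_cos.tendsto 0).comp tendsto_coord1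
  have t4 : Tendsto (fun ω : E3 => Real.sin (ω 1)) (𝓝 om0) (𝓝 (Real.sin 0)) :=
    (Real.continuous_sin.tendsto 0).comp tendsto_coord1
  have t5 := (t1.mul t3).sub ((t2.const_mul c).mul t4)
  rw [Real.cos_zero, Real.sin_zero, mul_one, mul_zero, sub_zero] at t5
  exact t5.eventually (gt_mem_nhds h)

theorem eventually_nice : ∀ᶠ ω in 𝓝 om0, Nice ω := by
  have e1 : ∀ᶠ ω in 𝓝 om0, Good (ω 0) := tendsto_coord0.eventually eventually_good
  have e2 : ∀ᶠ ω in 𝓝 om0, 0 < Real.cos (ω 1) := by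
    have t3 : Tendsto (fun ω : E3 => Real.cos (ω 1)) (𝓝 om0) (𝓝 (Real.cos 0)) :=
      (Real.continuous_cos.tendsto 0).comp tendsto_coord1
    rw [Real.cos_zero] at t3
    exact t3.eventually (lt_mem_nhds one_pos)
  have x2 : xi2 1 < 0 := by rw [xi2_one]; norm_num
  have x3 : xi3 1 < 0 := by rw [xi3_one]; norm_num
  have e3 := eventually_hcond xi2 eta2 1 contDiffAt_xi2.continuousAt contDiffAt_eta2.continuousAt x2
  have e4 := eventually_hcond xi2 eta2 (-1) contDiffAt_xi2.continuousAt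
    contDiffAt_eta2.continuousAt x2
  have e5 := eventually_hcond xi3 eta3 1 contDiffAt_xi3.continuousAt contDiffAt_eta3.continuousAt x3
  have e6 := eventually_hcond xi3 eta3 (-1) contDiffAt_xi3.continuousAt
    contDiffAt_eta3.continuousAt x3
  have e7 : ∀ᶠ ω in 𝓝 om0, U1 (ω 0) < 29 / 5 :=
    (continuousAt_U1.tendsto.comp tendsto_coord0).eventually (gt_mem_nhds U1_one_lt)
  have e8 : ∀ᶠ ω in 𝓝 om0, ∀ k, dist (PsiK k ω) (site (eta2 1) k) < 1 / 200 := by
    rw [Filter.eventually_all]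
    intro k
    have h := (continuousAt_PsiK k).tendsto
    rw [PsiK_om0] at h
    exact h.eventually (Metric.ball_mem_nhds _ (by norm_num))
  filter_upwards [e1, e2, e3, e4, e5, e6, e7, e8] with ω h1 h2 h3 h4 h5 h6 h7 h8
  exact ⟨h1, h2, h3, h4, h5, h6, h7, h8⟩

theorem measurable_PsiK (k : Fin 5) : Measurable (PsiK k) := by
  fin_cases k
  · exact measurable_Psi _ _ measurable_r1 measurable_const
  · exact measurable_Psi _ _ measurable_xi2 measurable_eta2
  · exact measurable_Psi _ _ measurable_xi3 measurable_eta3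
  · exact measurable_Psi _ _ measurable_xi2 measurable_eta2.neg
  · exact measurable_Psi _ _ measurable_xi3 measurable_eta3.neg

theorem PsiK_local (k : Fin 5) :
    ∃ U ∈ 𝓝 om0, Set.InjOn (PsiK k) U ∧ ∀ t ⊆ U, volume (PsiK k '' t) = 0 → volume t = 0 := by
  fin_cases k
  · exact Psi_local r1 (fun _ => 0) 1 contDiffAt_r1 contDiffAt_const
      (by rw [r1_one]; norm_num) deriv_R1
  · exact Psi_local xi2 eta2 1 contDiffAt_xi2 contDiffAt_eta2
      (by rw [xi2_one]; norm_num) deriv_R2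
  · exact Psi_local xi3 eta3 1 contDiffAt_xi3 contDiffAt_eta3
      (by rw [xi3_one]; norm_num) deriv_R3
  · exact Psi_local xi2 (fun s => -eta2 s) 1 contDiffAt_xi2 contDiffAt_eta2.neg
      (by rw [xi2_one]; norm_num) deriv_R2'
  · exact Psi_local xi3 (fun s => -eta3 s) 1 contDiffAt_xi3 contDiffAt_eta3.neg
      (by rw [xi3_one]; norm_num) deriv_R3'

theorem measurable_uPf : Measurable uPf :=
  (measurable_U1.comp (measurable_coord 0)).ennreal_ofReal

theorem measurable_gPf : Measurable gPf := by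
  unfold gPf
  refine Measurable.ennreal_ofReal ?_
  have h0 := measurable_coord 0
  have h1 := measurable_coord 1
  exact (((measurable_aF.comp h0).pow_const 3).div (h0.pow_const 3)).mul
    ((measurable_r1.comp h0).mul (Real.measurable_cos.comp h1))

theorem measurable_uNf : Measurable uNf := by
  unfold uNf
  refine Measurable.ite (measurableSet_lt measurable_norm measurable_const) ?_ ?_
  · exact ((measurable_norm.pow_const 2).const_mul _).ennreal_ofReal
  · exact (((measurable_norm.pow_const 2).const_mul _).add_const _).ennreal_ofReal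

theorem measurable_gQf : Measurable gQf := by
  unfold gQf
  refine Measurable.ite (measurableSet_lt measurable_norm measurable_const) ?_ ?_
  · exact measurable_rho.ennreal_ofReal
  · exact (measurable_rho.const_mul _).ennreal_ofReal

end Vale.Agent.P121
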